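import Vale.Agent.P254.Basic

/-!
P254 Aff (TASK, helper names start with aff_): affine invariance.
aff_int: integral_image_eq_integral_abs_det_fderiv_smul with the derivative LinearMap.toContinuousLinearMap (Matrix.toLin' M)
(LinearMap.det_toLin'), injective since M.det ≠ 0.  Phi_aff: vol scales by |det M|, cen (image) = aff M b (cen K),
cov (image) = M * cov K * Mᵀ (integral_finset_sum, ContinuousOn.integrableOn_compact), det_mul, det_transpose, sq_abs.
aff_inv: M⁻¹ and -(M⁻¹ *ᵥ b).  cov_psd: xᵀ cov x = (vol K)⁻¹ * ∫ (x ⬝ᵥ (y - cen))^2.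
-/

open MeasureTheory Set Matrix

noncomputable section

namespace Vale.Agent.P254

variable {n : ℕ}

theorem aff_comb (M : Matrix (Fin n) (Fin n) ℝ) (c x y : Fin n → ℝ) {a b : ℝ} (h : a + b = 1) :
    aff M c (a • x + b • y) = a • aff M c x + b • aff M c y := by
  have e : c = a • c + b • c := by rw [← add_smul, h, one_smul]
  simp only [aff, mulVec_add, mulVec_smul, smul_add]
  rw [add_add_add_comm, ← e]

theorem aff_convex (M : Matrix (Fin n) (Fin n) ℝ) (b : Fin n → ℝ) {K : Set (Fin n → ℝ)}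
    (h : Convex ℝ K) : Convex ℝ (aff M b '' K) := by
  rintro _ ⟨x, hx, rfl⟩ _ ⟨y, hy, rfl⟩ s t hs ht hst
  exact ⟨_, h hx hy hs ht hst, aff_comb M b x y hst⟩

theorem aff_inv {M : Matrix (Fin n) (Fin n) ℝ} (hM : M.det ≠ 0) (b : Fin n → ℝ) :
    ∃ (M' : Matrix (Fin n) (Fin n) ℝ) (b' : Fin n → ℝ), M'.det ≠ 0 ∧
      (∀ x, aff M' b' (aff M b x) = x) ∧ ∀ x, aff M b (aff M' b' x) = x := by
  have hu : IsUnit M.det := isUnit_iff_ne_zero.2 hM
  refine ⟨M⁻¹, -(M⁻¹ *ᵥ b), (isUnit_nonsing_inv_det M hu).ne_zero, fun x => ?_, fun x => ?_⟩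
  · simp only [aff, mulVec_add, mulVec_mulVec, nonsing_inv_mul M hu, one_mulVec,
      add_neg_cancel_right]
  · simp only [aff, mulVec_add, mulVec_neg, mulVec_mulVec, mul_nonsing_inv M hu, one_mulVec,
      neg_add_cancel_right]

theorem aff_int {M : Matrix (Fin n) (Fin n) ℝ} (hM : M.det ≠ 0) (b : Fin n → ℝ) {K : Set (Fin n → ℝ)}
    (hK : MeasurableSet K) (f : (Fin n → ℝ) → ℝ) :
    ∫ x in aff M b '' K, f x = |M.det| * ∫ y in K, f (aff M b y) := by
  obtain ⟨M', b', -, h1, -⟩ := aff_inv hM b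
  have hd : ∀ x ∈ K, HasFDerivWithinAt (aff M b)
      (LinearMap.toContinuousLinearMap (Matrix.toLin' M)) K x := fun x _ =>
    ((LinearMap.toContinuousLinearMap (Matrix.toLin' M)).hasFDerivAt.add_const b).hasFDerivWithinAt
  rw [integral_image_eq_integral_abs_det_fderiv_smul volume hK hd
    (Function.LeftInverse.injective h1).injOn, ← integral_const_mul]
  simp only [LinearMap.det_toContinuousLinearMap, LinearMap.det_toLin', smul_eq_mul]

theorem vol_eq (K : Set (Fin n → ℝ)) : vol K = ∫ _ in K, (1 : ℝ) := by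
  rw [setIntegral_const, smul_eq_mul, mul_one]
  rfl

theorem aff_quad {K : Set (Fin n → ℝ)} (hK : IsCompact K) (u w : Fin n → ℝ) :
    (vol K)⁻¹ * ∫ x in K, (u ⬝ᵥ (x - cen K)) * (w ⬝ᵥ (x - cen K)) = u ⬝ᵥ (cov K *ᵥ w) := by
  have hi : ∀ k l, IntegrableOn (fun x : Fin n → ℝ =>
      u k * w l * ((x k - cen K k) * (x l - cen K l))) K := fun k l =>
    ContinuousOn.integrableOn_compact hK (by fun_prop)
  have e : ∀ x : Fin n → ℝ, (u ⬝ᵥ (x - cen K)) * (w ⬝ᵥ (x - cen K)) =
      ∑ k, ∑ l, u k * w l * ((x k - cen K k) * (x l - cen K l)) := fun x => by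
    simp only [dotProduct, Finset.sum_mul_sum, Pi.sub_apply]
    exact Finset.sum_congr rfl fun k _ => Finset.sum_congr rfl fun l _ => by ring
  simp only [e]
  rw [integral_finsetSum _ fun k _ => integrable_finsetSum _ fun l _ => hi k l]
  simp only [integral_finsetSum _ fun l _ => hi _ l, integral_const_mul, dotProduct, mulVec, cov,
    Matrix.of_apply, Finset.mul_sum]
  exact Finset.sum_congr rfl fun k _ => Finset.sum_congr rfl fun l _ => by ring

theorem Phi_aff {M : Matrix (Fin n) (Fin n) ℝ} (hM : M.det ≠ 0) (b : Fin n → ℝ) {K : Set (Fin n → ℝ)}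
    (hK : IsCompact K) : Phi (aff M b '' K) = Phi K := by
  have hm := hK.measurableSet
  have hv : vol (aff M b '' K) = |M.det| * vol K := by rw [vol_eq, aff_int hM b hm, ← vol_eq]
  have hd : |M.det| ≠ 0 := abs_ne_zero.2 hM
  rcases eq_or_ne (vol K) 0 with h0 | h0
  · simp [Phi, hv, h0]
  have hi : ∀ k l, IntegrableOn (fun x : Fin n → ℝ => M k l * x l) K := fun k l =>
    ContinuousOn.integrableOn_compact hK (by fun_prop)
  have hc : cen (aff M b '' K) = aff M b (cen K) := funext fun i => by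
    have h1 : IntegrableOn (fun _ : Fin n → ℝ => b i) K :=
      ContinuousOn.integrableOn_compact hK (by fun_prop)
    rw [cen, aff_int hM b hm, hv]
    simp only [aff, Pi.add_apply, mulVec, dotProduct, cen]
    rw [integral_add (integrable_finsetSum _ fun l _ => hi i l) h1,
      integral_finsetSum _ fun l _ => hi i l, setIntegral_const, smul_eq_mul,
      show volume.real K = vol K from rfl, mul_inv, mul_mul_mul_comm, inv_mul_cancel₀ hd, one_mul,
      mul_add, inv_mul_cancel_left₀ h0, Finset.mul_sum]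
    simp only [integral_const_mul, mul_left_comm]
  have hcov : cov (aff M b '' K) = M * cov K * Mᵀ := by
    ext i j
    have e : ∀ (k) (x : Fin n → ℝ), aff M b x k - aff M b (cen K) k = M k ⬝ᵥ (x - cen K) :=
      fun k x => by simp only [aff, Pi.add_apply, add_sub_add_right_eq_sub, dotProduct_sub, mulVec]
    rw [cov, Matrix.of_apply, aff_int hM b hm, hv, hc, mul_inv, mul_mul_mul_comm,
      inv_mul_cancel₀ hd, one_mul]
    simp only [e]
    rw [aff_quad hK, Matrix.mul_assoc]
    rfl
  rw [Phi, Phi, hcov, hv, det_mul, det_mul, det_transpose, mul_pow, sq_abs]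
  field_simp

theorem cov_psd {K : Set (Fin n → ℝ)} (hK : IsCompact K) : (cov K).PosSemidef := by
  refine PosSemidef.of_dotProduct_mulVec_nonneg ?_ fun x => ?_
  · ext i j
    simp only [cov, conjTranspose_apply, Matrix.of_apply, star_trivial, mul_comm]
  · rw [star_trivial, ← aff_quad hK]
    exact mul_nonneg (inv_nonneg.2 ENNReal.toReal_nonneg)
      (integral_nonneg fun y => mul_self_nonneg _)

theorem Phi_nonneg {K : Set (Fin n → ℝ)} (hK : IsCompact K) : 0 ≤ Phi K := by
  exact div_nonneg (cov_psd hK).det_nonneg (sq_nonneg _)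

end Vale.Agent.P254
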