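import Vale.Agent.P254.Defs

/-!
P254 Basic: internal definitions (FROZEN, owner helper31).
Goal: the simplex is a strict local maximizer of the isotropic constant.
Take a simplex T of minimal volume containing K (the centroids of its facets lie in K), normalise T = T0.
Cut T0 into the n+1 cones from its centroid over the facets; each cone is the orthant in the coordinates y,
K is the set ρ ≤ 1 with ρ = sm + g, g ≥ 0 convex, g (1,..,1) = 0.  Laguerre polynomials give the gain.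
-/

open MeasureTheory Set Matrix

noncomputable section

namespace Vale.Agent.P254

variable {n : ℕ}

def Phi (K : Set (Fin n → ℝ)) : ℝ := (cov K).det / vol K ^ 2

def aff (M : Matrix (Fin n) (Fin n) ℝ) (b x : Fin n → ℝ) : Fin n → ℝ := M *ᵥ x + b

def sm (y : Fin n → ℝ) : ℝ := ∑ i, y i

/-- barycentric coordinates -/
def bc (x : Fin n → ℝ) : Fin (n + 1) → ℝ := Fin.cons (1 - sm x) x

/-- the standard simplex -/
def T0 (n : ℕ) : Set (Fin n → ℝ) := {x | ∀ j, 0 ≤ bc x j}

/-- the centroid of the facet number `k` -/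
def fc (k : Fin (n + 1)) : Fin n → ℝ := fun i => if i.succ = k then 0 else 1 / n

def Qx (x : Fin n → ℝ) : ℝ := (n + 1) * (n + 2) * ∑ j, (bc x j - 1 / (n + 1)) ^ 2

def Ort (n : ℕ) : Set (Fin n → ℝ) := {y | ∀ i, 0 ≤ y i}

/-- expectation for independent exponential variables -/
def EX (f : (Fin n → ℝ) → ℝ) : ℝ := ∫ y in Ort n, f y * Real.exp (-sm y)

def pl (t : ℝ) : ℝ := t ^ 2 - 4 * t + 2

def wk (t : ℝ) : ℝ := if 1 / 2 ≤ t then 2 * Real.exp (1 - t) else 0

def Qy (y : Fin n → ℝ) : ℝ := (n + 1) * (n + 2) * ∑ i, y i ^ 2 - (n + 2) * sm y ^ 2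

structure Gau (ρ : (Fin n → ℝ) → ℝ) (ε : ℝ) : Prop where
  cont : Continuous ρ
  cvx : ConvexOn ℝ univ ρ
  hom : ∀ t : ℝ, 0 < t → ∀ y, ρ (t • y) = t * ρ y
  lo : ∀ y ∈ Ort n, sm y ≤ ρ y
  hi : ∀ y ∈ Ort n, ρ y ≤ (1 + ε) * sm y
  one : ρ (fun _ => 1) ≤ n

def Lm (k : Fin (n + 1)) : Matrix (Fin n) (Fin n) ℝ :=
  Matrix.of fun i l => (if i.succ = k.succAbove l then 1 else 0) - 1 / (n + 1)

def c0 (n : ℕ) : Fin n → ℝ := fun _ => 1 / (n + 1)

/-- the normalised position -/
structure Pos (K : Set (Fin n → ℝ)) (ε : ℝ) : Prop where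
  cpt : IsCompact K
  cvx : Convex ℝ K
  sub : K ⊆ T0 n
  touch : ∀ k, fc k ∈ K
  inner : ∀ x, (∀ j, ε ≤ bc x j) → x ∈ K

def Am (n : ℕ) : Matrix (Fin n) (Fin n) ℝ :=
  Matrix.of fun i j => (n + 1) * (n + 2) * ((if i = j then 1 else 0) + 1)

/-- systems of barycentric coordinates of simplices containing `K` -/
def Adm (K : Set (Fin n → ℝ)) (A : Matrix (Fin (n + 1)) (Fin (n + 1)) ℝ) : Prop :=
  (∀ x ∈ K, ∀ i, 0 ≤ (A *ᵥ bc x) i) ∧ ∀ l, ∑ i, A i l = 1

theorem bc_zero (x : Fin n → ℝ) : bc x 0 = 1 - sm x := rfl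
theorem bc_succ (x : Fin n → ℝ) (i : Fin n) : bc x i.succ = x i := rfl
theorem sum_bc (x : Fin n → ℝ) : ∑ j, bc x j = 1 := by
  rw [Fin.sum_univ_succ, bc_zero]
  simp only [bc_succ, sm]
  ring
theorem bc_inj {x y : Fin n → ℝ} (h : bc x = bc y) : x = y :=
  funext fun i => congrFun h i.succ
theorem bc_tail {w : Fin (n + 1) → ℝ} (h : ∑ j, w j = 1) : bc (Fin.tail w) = w := by
  funext j
  refine Fin.cases ?_ (fun i => rfl) j
  rw [Fin.sum_univ_succ] at h
  rw [bc_zero, ← h]
  simp [sm, Fin.tail]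
theorem continuous_sm : Continuous (sm : (Fin n → ℝ) → ℝ) := by
  unfold sm
  fun_prop
theorem continuous_bc (j : Fin (n + 1)) : Continuous fun x : Fin n → ℝ => bc x j := by
  refine Fin.cases ?_ (fun i => continuous_apply i) j
  exact continuous_const.sub continuous_sm
theorem continuous_aff (M : Matrix (Fin n) (Fin n) ℝ) (b : Fin n → ℝ) : Continuous (aff M b) := by
  unfold aff
  fun_prop
theorem continuous_Qx : Continuous (Qx : (Fin n → ℝ) → ℝ) :=
  continuous_const.mul (continuous_finsetSum _ fun j _ => ((continuous_bc j).sub continuous_const).pow 2)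
theorem continuous_Qy : Continuous (Qy : (Fin n → ℝ) → ℝ) := by
  unfold Qy sm
  fun_prop
theorem sm_smul (t : ℝ) (y : Fin n → ℝ) : sm (t • y) = t * sm y := by
  simp [sm, Finset.mul_sum]
theorem sm_add (x y : Fin n → ℝ) : sm (x + y) = sm x + sm y := by
  simp [sm, Finset.sum_add_distrib]
theorem sm_nonneg {y : Fin n → ℝ} (h : y ∈ Ort n) : 0 ≤ sm y := Finset.sum_nonneg fun i _ => h i
theorem le_sm {y : Fin n → ℝ} (h : y ∈ Ort n) (i : Fin n) : y i ≤ sm y :=
  Finset.single_le_sum (fun j _ => h j) (Finset.mem_univ i)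
theorem bc_comb (x y : Fin n → ℝ) {a b : ℝ} (h : a + b = 1) (j : Fin (n + 1)) :
    bc (a • x + b • y) j = a * bc x j + b * bc y j := by
  refine Fin.cases ?_ (fun i => rfl) j
  simp only [bc_zero, sm_add, sm_smul]
  linear_combination -h
theorem isClosed_Ort : IsClosed (Ort n) := by
  have : Ort n = ⋂ i, {y : Fin n → ℝ | 0 ≤ y i} := by
    ext y
    simp [Ort]
  rw [this]
  exact isClosed_iInter fun i => isClosed_le continuous_const (continuous_apply i)
theorem T0_eq : T0 n = Ort n ∩ {y | sm y ≤ 1} := by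
  ext x
  simp only [T0, Ort, mem_ofPred_eq, mem_inter_iff, Fin.forall_fin_succ, bc_zero, bc_succ, sub_nonneg]
  exact and_comm
theorem isCompact_T0 : IsCompact (T0 n) := by
  rw [T0_eq]
  refine (isCompact_Icc (a := fun _ => 0) (b := fun _ => 1)).of_isClosed_subset
    (isClosed_Ort.inter (isClosed_le continuous_sm continuous_const)) fun y hy => ?_
  exact ⟨fun i => hy.1 i, fun i => (le_sm hy.1 i).trans hy.2⟩
theorem convex_T0 : Convex ℝ (T0 n) := fun x hx y hy a b ha hb h j => by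
  rw [bc_comb x y h]
  exact add_nonneg (mul_nonneg ha (hx j)) (mul_nonneg hb (hy j))
theorem gau_sm {ε : ℝ} (h : 0 ≤ ε) : Gau (sm : (Fin n → ℝ) → ℝ) ε where
  cont := continuous_sm
  cvx := ⟨convex_univ, fun x _ y _ a b _ _ _ => by simp [sm_add, sm_smul]⟩
  hom := fun t _ y => sm_smul t y
  lo := fun _ _ => le_rfl
  hi := fun y hy => le_mul_of_one_le_left (sm_nonneg hy) (by linarith)
  one := by simp [sm]

end Vale.Agent.P254
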