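import Vale.Agent.P254.Basic

/-!
P254 Hom (TASK, helper names start with hom_): integrals of homogeneous functions.
D t = Ort n ∩ {ρ ≤ t} is compact (sm ≤ ρ), D t = t • D 1 for t > 0, so ∫ over D t of h is t^(n+j) * I, I = ∫ over D 1 of h
(Measure.setIntegral_comp_smul_of_pos or integral_comp_smul with indicators); for t ≤ 0, D t ⊆ {0} is null (n ≥ 1).
Route: the measures ν = map ρ ((volume.restrict (Ort n)).withDensity (ofReal ∘ h)) and
ν' = (volume.restrict (Ioi 0)).withDensity (ofReal (I * (n + j) * t^(n+j-1))) agree on all Iic t (Measure.ext_of_Iic, ν' is locally finite, or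
ν' finite on Iic); integrate w t = t^i * exp (-t) (lintegral_map, lintegral_withDensity_eq_lintegral_mul,
integral_eq_lintegral_of_nonneg_ae, Real.Gamma_eq_integral, Real.Gamma_nat_eq_factorial).
Alternative: Tonelli; first prove the statement for lintegrals with w r = ∫ over t > r of φ t.
-/

open MeasureTheory Set Matrix

noncomputable section

namespace Vale.Agent.P254

variable {n : ℕ}

theorem hom_cpt {ρ : (Fin n → ℝ) → ℝ} {ε : ℝ} (hρ : Gau ρ ε) (t : ℝ) :
    IsCompact (Ort n ∩ {y | ρ y ≤ t}) := by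
  refine (isCompact_Icc (a := fun _ => 0) (b := fun _ => t)).of_isClosed_subset
    (isClosed_Ort.inter (isClosed_le hρ.cont continuous_const)) fun y hy => ?_
  exact ⟨fun i => hy.1 i, fun i => ((le_sm hy.1 i).trans (hρ.lo y hy.1)).trans hy.2⟩

open Pointwise in
theorem hom_scale {ρ : (Fin n → ℝ) → ℝ} {ε : ℝ} (hρ : Gau ρ ε) {h : (Fin n → ℝ) → ℝ} {j : ℕ}
    (hh : ∀ t : ℝ, 0 < t → ∀ y, h (t • y) = t ^ j * h y) {t : ℝ} (ht : 0 < t) :
    ∫ y in Ort n ∩ {y | ρ y ≤ t}, h y = t ^ (n + j) * ∫ y in Ort n ∩ {y | ρ y ≤ 1}, h y := by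
  have h1 : t • (Ort n ∩ {y | ρ y ≤ 1}) = Ort n ∩ {y | ρ y ≤ t} := by
    ext y
    constructor
    · rintro ⟨z, hz, rfl⟩
      refine ⟨fun i => mul_nonneg ht.le (hz.1 i), ?_⟩
      show ρ (t • z) ≤ t
      rw [hρ.hom t ht]
      exact mul_le_of_le_one_right ht.le hz.2
    · intro hy
      refine ⟨t⁻¹ • y, ⟨fun i => mul_nonneg (inv_pos.2 ht).le (hy.1 i), ?_⟩, smul_inv_smul₀ ht.ne' y⟩
      show ρ (t⁻¹ • y) ≤ 1
      rw [hρ.hom _ (inv_pos.2 ht), inv_mul_le_iff₀ ht, mul_one]
      exact hy.2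
  have h2 := Measure.setIntegral_comp_smul_of_pos volume h (Ort n ∩ {y | ρ y ≤ 1}) ht
  rw [h1, Module.finrank_fin_fun, smul_eq_mul] at h2
  simp only [hh t ht] at h2
  rw [integral_const_mul, eq_comm, inv_mul_eq_iff_eq_mul₀ (pow_ne_zero _ ht.ne')] at h2
  rw [h2, pow_add, mul_assoc]

theorem hom_null (hn : 1 ≤ n) {ρ : (Fin n → ℝ) → ℝ} {ε : ℝ} (hρ : Gau ρ ε) {t : ℝ} (ht : t ≤ 0) :
    volume (Ort n ∩ {y | ρ y ≤ t}) = 0 := by
  have : Nonempty (Fin n) := ⟨⟨0, hn⟩⟩
  refine measure_mono_null (t := {0}) (fun y hy => funext fun i => ?_) (measure_singleton _)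
  exact le_antisymm ((((le_sm hy.1 i).trans (hρ.lo y hy.1)).trans hy.2).trans ht) (hy.1 i)

theorem hom_pow {I : ℝ} (hI : 0 ≤ I) (k : ℕ) (t : ℝ) :
    (volume.restrict (Ioi (0 : ℝ))).withDensity
      (fun s => ENNReal.ofReal (I * (k + 1) * s ^ k)) (Iic t) =
      ENNReal.ofReal (max t 0 ^ (k + 1) * I) := by
  rw [withDensity_apply _ measurableSet_Iic, Measure.restrict_restrict measurableSet_Iic,
    inter_comm, Ioi_inter_Iic]
  rcases le_or_gt t 0 with ht | ht
  · rw [Ioc_eq_empty (not_lt.2 ht), max_eq_right ht]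
    simp
  · have hc : Continuous fun s : ℝ => I * (k + 1) * s ^ k := by fun_prop
    rw [← ofReal_integral_eq_lintegral_ofReal (hc.integrableOn_Icc.mono_set Ioc_subset_Icc_self)
      ((ae_restrict_iff' measurableSet_Ioc).2 (.of_forall fun s hs => by
        have := hs.1.le
        positivity)),
      ← intervalIntegral.integral_of_le ht.le, intervalIntegral.integral_const_mul, integral_pow,
      max_eq_left ht.le]
    congr 1
    have : (k : ℝ) + 1 ≠ 0 := by positivity
    field_simp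
    ring

theorem hom_int (hn : 1 ≤ n) {ρ : (Fin n → ℝ) → ℝ} {ε : ℝ} (hρ : Gau ρ ε) {h : (Fin n → ℝ) → ℝ} {j : ℕ}
    (hc : Continuous h) (h0 : ∀ y ∈ Ort n, 0 ≤ h y)
    (hh : ∀ t : ℝ, 0 < t → ∀ y, h (t • y) = t ^ j * h y) (i : ℕ) :
    ∫ y in Ort n, h y * ρ y ^ i * Real.exp (-ρ y) =
      (n + j) * (n + j + i - 1).factorial * ∫ y in Ort n ∩ {y | ρ y ≤ 1}, h y := by
  obtain ⟨k, hk⟩ : ∃ k, n + j = k + 1 := ⟨n + j - 1, by omega⟩
  have hO := (isClosed_Ort (n := n)).measurableSet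
  have hD : ∀ t, MeasurableSet (Ort n ∩ {y | ρ y ≤ t}) := fun t => (hom_cpt hρ t).measurableSet
  obtain ⟨I, hI⟩ : ∃ I, I = ∫ y in Ort n ∩ {y | ρ y ≤ 1}, h y := ⟨_, rfl⟩
  have hI0 : 0 ≤ I := hI ▸ setIntegral_nonneg (hD 1) fun y hy => h0 y hy.1
  have hm := hρ.cont.measurable
  have e1 : ∀ t, ((volume.restrict (Ort n)).withDensity fun y => ENNReal.ofReal (h y)).map ρ (Iic t) =
      ENNReal.ofReal (max t 0 ^ (k + 1) * I) := by
    intro t
    rw [Measure.map_apply hm measurableSet_Iic, withDensity_apply _ (hm measurableSet_Iic),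
      Measure.restrict_restrict (hm measurableSet_Iic), inter_comm]
    change ∫⁻ y in Ort n ∩ {y | ρ y ≤ t}, ENNReal.ofReal (h y) = _
    rcases le_or_gt t 0 with ht | ht
    · rw [setLIntegral_measure_zero _ _ (hom_null hn hρ ht), max_eq_right ht]
      simp
    · rw [← ofReal_integral_eq_lintegral_ofReal (hc.continuousOn.integrableOn_compact (hom_cpt hρ t))
        ((ae_restrict_iff' (hD t)).2 (.of_forall fun y hy => h0 y hy.1)), hom_scale hρ hh ht, hk,
        max_eq_left ht.le, hI]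
  have e2 : ((volume.restrict (Ort n)).withDensity fun y => ENNReal.ofReal (h y)).map ρ =
      (volume.restrict (Ioi (0 : ℝ))).withDensity
        fun s => ENNReal.ofReal (I * (k + 1) * s ^ k) := by
    refine Measure.ext_of_Ioc' _ _ (fun a b _ => ?_) fun a b hab => ?_
    · refine ne_top_of_le_ne_top ?_ (measure_mono Ioc_subset_Iic_self)
      rw [e1]
      exact ENNReal.ofReal_ne_top
    · rw [← Iic_sdiff_Iic, measure_sdiff (Iic_subset_Iic.2 hab.le) measurableSet_Iic.nullMeasurableSet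
        (by rw [e1]; exact ENNReal.ofReal_ne_top),
        measure_sdiff (Iic_subset_Iic.2 hab.le) measurableSet_Iic.nullMeasurableSet
        (by rw [hom_pow hI0]; exact ENNReal.ofReal_ne_top), e1, e1, hom_pow hI0, hom_pow hI0]
  have hw : Continuous fun t : ℝ => t ^ i * Real.exp (-t) := by fun_prop
  have e3 := congrArg (fun μ : Measure ℝ => ∫ t, t ^ i * Real.exp (-t) ∂μ) e2
  rw [integral_map hm.aemeasurable hw.aestronglyMeasurable,
    integral_withDensity_eq_integral_toReal_smul (by fun_prop)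
      (.of_forall fun _ => ENNReal.ofReal_lt_top),
    integral_withDensity_eq_integral_toReal_smul (by fun_prop)
      (.of_forall fun _ => ENNReal.ofReal_lt_top)] at e3
  have e4 : ∫ y in Ort n, h y * ρ y ^ i * Real.exp (-ρ y) =
      ∫ y in Ort n, (ENNReal.ofReal (h y)).toReal • (ρ y ^ i * Real.exp (-ρ y)) :=
    setIntegral_congr_fun hO fun y hy => by
      simp only [ENNReal.toReal_ofReal (h0 y hy), smul_eq_mul, mul_assoc]
  have e5 : ∫ s in Ioi (0 : ℝ), (ENNReal.ofReal (I * (k + 1) * s ^ k)).toReal •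
      (s ^ i * Real.exp (-s)) =
      ∫ s in Ioi (0 : ℝ), I * (k + 1) * (Real.exp (-s) * s ^ (((k + i : ℕ) : ℝ) + 1 - 1)) :=
    setIntegral_congr_fun measurableSet_Ioi fun s hs => by
      have : 0 ≤ s := le_of_lt hs
      rw [ENNReal.toReal_ofReal (by positivity), add_sub_cancel_right, Real.rpow_natCast,
        smul_eq_mul, pow_add]
      ring
  have e6 : (n : ℝ) + j = k + 1 := by exact_mod_cast hk
  rw [e4, e3, e5, integral_const_mul, ← Real.Gamma_eq_integral (by positivity),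
    Real.Gamma_nat_eq_factorial, ← hI, e6, show n + j + i - 1 = k + i by omega]
  ring

end Vale.Agent.P254
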