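import Vale.Agent.P254.Lag
import Vale.Agent.P254.Hom

/-!
P254 Cone (TASK, helper names start with cone_): the inequality in one cone.
g = ρ - sm is continuous, convex, 1-homogeneous, 0 ≤ g ≤ ε sm on Ort, g 1 ≤ 0.  G = EX g.  hom_int for sm (gau_sm), h = g, j = 1:
EX (g * sm^i) = (n + 1) (n + i)! I, so EX (sm g) = (n+1) G, EX (sm^2 g) = (n+1)(n+2) G, EX (sm^3 g) = (n+1)(n+2)(n+3) G.
hom_int with i = 0: n! * vol (D ρ) = EX (exp (-g)) (h = 1, j = 0), (n+2)! * ∫ over D ρ of Qy = EX (Qy * exp (-g)) (j = 2); the same with g = 0.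
0 ≤ Qy ≤ (n+1)(n+2) sm^2 on Ort (sq_sum_le_card_mul_sum_sq; Finset.sum_sq_le_sq_sum_of_nonneg), g - g^2/2 ≤ 1 - exp (-g) ≤ g, g^2 ≤ ε sm g.
lag: ∑ pl (y i) = ∑ y i ^ 2 - 4 sm + 2 n, so EX (∑ y i ^ 2 * g) ≥ (2 n + 4 + c) G, EX (Qy g) ≥ (n+1)(n+2)(n+2+c) G.
With ε = c / ((n+1)(n+2)(n+3)): EX (Qy (1 - exp (-g))) ≥ (n+1)(n+2)(n+2+c/2) G ≥ (n+1)(n+2)(n+2+c/2) EX (1 - exp (-g)).
Integrability: int_poly.
-/

open MeasureTheory Set Matrix

noncomputable section

namespace Vale.Agent.P254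

variable {n : ℕ}

/-- `f` is integrable with expectation `v`. -/
def cone_H (f : (Fin n → ℝ) → ℝ) (v : ℝ) : Prop :=
  IntegrableOn (fun y => f y * Real.exp (-sm y)) (Ort n) ∧ EX f = v

theorem cone_add {f f' : (Fin n → ℝ) → ℝ} {v v' : ℝ} (h : cone_H f v) (h' : cone_H f' v') :
    cone_H (fun y => f y + f' y) (v + v') := by
  refine ⟨?_, ?_⟩
  · simp only [add_mul]
    exact h.1.add h'.1
  · rw [← h.2, ← h'.2]
    simp only [EX, add_mul]
    exact integral_add h.1 h'.1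

theorem cone_smul {f : (Fin n → ℝ) → ℝ} {v : ℝ} (h : cone_H f v) (a : ℝ) :
    cone_H (fun y => a * f y) (a * v) := by
  refine ⟨?_, ?_⟩
  · simp only [mul_assoc]
    exact h.1.const_mul a
  · rw [← h.2]
    simp only [EX, mul_assoc]
    exact integral_const_mul _ _

theorem cone_mono {f f' : (Fin n → ℝ) → ℝ} {v v' : ℝ} (h : cone_H f v) (h' : cone_H f' v')
    (hle : ∀ y ∈ Ort n, f y ≤ f' y) : v ≤ v' := by
  rw [← h.2, ← h'.2]
  exact setIntegral_mono_on h.1 h'.1 isClosed_Ort.measurableSet fun y hy =>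
    mul_le_mul_of_nonneg_right (hle y hy) (Real.exp_pos _).le

theorem cone_int {f : (Fin n → ℝ) → ℝ} (hf : Continuous f) {B : ℝ} (hB : 0 ≤ B) (j : ℕ)
    (h : ∀ y ∈ Ort n, 0 ≤ f y ∧ f y ≤ B * sm y ^ j) :
    IntegrableOn (fun y => f y * Real.exp (-sm y)) (Ort n) := by
  refine int_poly hf.measurable (B := B) (j := j) fun y hy => ?_
  rw [abs_of_nonneg (h y hy).1]
  exact (h y hy).2.trans
    (mul_le_mul_of_nonneg_left (pow_le_pow_left₀ (sm_nonneg hy) (by linarith) j) hB)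

theorem cone_sq {y : Fin n → ℝ} (hy : y ∈ Ort n) : ∑ i, y i ^ 2 ≤ sm y ^ 2 :=
  Finset.sum_sq_le_sq_sum_of_nonneg fun i _ => hy i

theorem cone_sq0 (y : Fin n → ℝ) : 0 ≤ ∑ i, y i ^ 2 := Finset.sum_nonneg fun _ _ => sq_nonneg _

theorem cone_Q0 (y : Fin n → ℝ) : 0 ≤ Qy y := by
  have h1 : sm y ^ 2 ≤ n * ∑ i, y i ^ 2 := by
    simpa [sm] using sq_sum_le_card_mul_sum_sq (s := Finset.univ) (f := y)
  have h2 := cone_sq0 y
  have h3 : (0 : ℝ) ≤ n + 2 := by positivity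
  have h4 : 0 ≤ (n + 2 : ℝ) * ((n + 1) * ∑ i, y i ^ 2 - sm y ^ 2) :=
    mul_nonneg h3 (by linarith)
  unfold Qy
  linarith

theorem cone_Q1 {y : Fin n → ℝ} (hy : y ∈ Ort n) : Qy y ≤ (n + 1) * (n + 2) * sm y ^ 2 := by
  have h1 := mul_le_mul_of_nonneg_left (cone_sq hy) (by positivity : (0 : ℝ) ≤ (n + 1) * (n + 2))
  have h2 : 0 ≤ (n + 2 : ℝ) * sm y ^ 2 := by positivity
  unfold Qy
  linarith

theorem cone_Qh (t : ℝ) (y : Fin n → ℝ) : Qy (t • y) = t ^ 2 * Qy y := by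
  simp only [Qy, sm_smul, Pi.smul_apply, smul_eq_mul, mul_pow, ← Finset.mul_sum]
  ring

theorem cone_exp {x : ℝ} (hx : 0 ≤ x) : Real.exp (-x) ≤ 1 - x + x ^ 2 / 2 := by
  have h1 := Real.quadratic_le_exp_of_nonneg hx
  have h2 : 0 ≤ 1 - x + x ^ 2 / 2 := by nlinarith [sq_nonneg (x - 1)]
  rw [Real.exp_neg, inv_eq_one_div, div_le_iff₀ (Real.exp_pos x)]
  have h3 := mul_le_mul_of_nonneg_left h1 h2
  nlinarith [sq_nonneg (x ^ 2)]

theorem cone_two (hn : 1 ≤ n) {ρ : (Fin n → ℝ) → ℝ} {ε : ℝ} (hρ : Gau ρ ε) :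
    cone_H (fun y => Real.exp (-(ρ y - sm y))) (n.factorial * vol (Ort n ∩ {y | ρ y ≤ 1})) ∧
      cone_H (fun y => Qy y * Real.exp (-(ρ y - sm y)))
        ((n + 1) * (n + 2) * n.factorial * ∫ y in Ort n ∩ {y | ρ y ≤ 1}, Qy y) := by
  have hc : Continuous fun y => Real.exp (-(ρ y - sm y)) :=
    Real.continuous_exp.comp (hρ.cont.sub continuous_sm).neg
  have h1 : ∀ y ∈ Ort n, Real.exp (-(ρ y - sm y)) ≤ 1 := fun y hy =>
    Real.exp_le_one_iff.2 (by linarith [hρ.lo y hy])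
  have he : ∀ y, Real.exp (-(ρ y - sm y)) * Real.exp (-sm y) = Real.exp (-ρ y) := fun y => by
    rw [← Real.exp_add]
    congr 1
    ring
  refine ⟨⟨cone_int hc zero_le_one 0 fun y hy => ⟨(Real.exp_pos _).le, by simpa using h1 y hy⟩, ?_⟩,
    cone_int (continuous_Qy.mul hc) (B := (n + 1) * (n + 2)) (by positivity) 2 fun y hy =>
      ⟨mul_nonneg (cone_Q0 y) (Real.exp_pos _).le,
        (mul_le_of_le_one_right (cone_Q0 y) (h1 y hy)).trans (cone_Q1 hy)⟩, ?_⟩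
  · have h2 := hom_int hn hρ (h := fun _ => 1) (j := 0) continuous_const (fun _ _ => zero_le_one)
      (fun _ _ _ => by simp) 0
    simp only [pow_zero, one_mul, Nat.cast_zero, add_zero, setIntegral_const, smul_eq_mul,
      mul_one] at h2
    simp only [EX, he]
    rw [h2, ← Nat.cast_mul, Nat.mul_factorial_pred (by omega)]
    rfl
  · have h2 := hom_int hn hρ (h := Qy) (j := 2) continuous_Qy (fun y _ => cone_Q0 y)
      (fun t _ y => cone_Qh t y) 0
    simp only [pow_zero, mul_one] at h2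
    simp only [EX, mul_assoc, he]
    rw [h2, show n + 2 + 0 - 1 = n + 1 from rfl, Nat.factorial_succ]
    push_cast
    ring

theorem cone_ineq (hn : 1 ≤ n) : ∃ ε c : ℝ, 0 < ε ∧ 0 < c ∧ ∀ ρ : (Fin n → ℝ) → ℝ, Gau ρ ε →
    (n + 2 + c) * (vol (T0 n) - vol (Ort n ∩ {y | ρ y ≤ 1})) ≤
      (∫ y in T0 n, Qy y) - ∫ y in Ort n ∩ {y | ρ y ≤ 1}, Qy y := by
  obtain ⟨c, hc, hlag⟩ := lag hn
  obtain ⟨ε, hε⟩ : ∃ ε : ℝ, ε = c / ((n + 1) * (n + 2) * (n + 3)) := ⟨_, rfl⟩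
  have hε0 : 0 < ε := by
    rw [hε]
    positivity
  have hεc : ε * ((n + 1) * (n + 2) * (n + 3)) = c := by
    rw [hε]
    exact div_mul_cancel₀ _ (by positivity)
  refine ⟨ε, c / 2, hε0, half_pos hc, fun ρ hρ => ?_⟩
  obtain ⟨h1, h3⟩ := cone_two hn (gau_sm (n := n) hε0.le)
  obtain ⟨h2, h4⟩ := cone_two hn hρ
  simp only [sub_self, neg_zero, Real.exp_zero, mul_one, ← T0_eq] at h1 h3
  obtain ⟨g, hg⟩ : ∃ g : (Fin n → ℝ) → ℝ, g = fun y => ρ y - sm y := ⟨_, rfl⟩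
  have hg' : ∀ y, ρ y - sm y = g y := fun y => by rw [hg]
  simp only [hg'] at h2 h4
  have gc : Continuous g := hg ▸ hρ.cont.sub continuous_sm
  have gv : ConvexOn ℝ univ g := hg ▸
    hρ.cvx.sub ⟨convex_univ, fun x _ y _ a b _ _ _ => by simp [sm_add, sm_smul]⟩
  have gb : ∀ y ∈ Ort n, 0 ≤ g y ∧ g y ≤ ε * sm y := fun y hy => by
    rw [← hg']
    exact ⟨by linarith [hρ.lo y hy], by linarith [hρ.hi y hy]⟩
  have g1 : g (fun _ => 1) ≤ 0 := by
    rw [← hg']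
    simpa [sm] using hρ.one
  have gh : ∀ t : ℝ, 0 < t → ∀ y, g (t • y) = t ^ 1 * g y := fun t ht y => by
    rw [← hg', ← hg', hρ.hom t ht, sm_smul]
    ring
  obtain ⟨I, hI⟩ : ∃ I, I = ∫ y in Ort n ∩ {y | sm y ≤ 1}, g y := ⟨_, rfl⟩
  have h5 : ∀ i : ℕ, cone_H (fun y => g y * sm y ^ i) ((n + 1) * (n + i).factorial * I) := by
    intro i
    refine ⟨cone_int (gc.mul (continuous_sm.pow i)) hε0.le (i + 1) fun y hy =>
      ⟨mul_nonneg (gb y hy).1 (pow_nonneg (sm_nonneg hy) i), ?_⟩, ?_⟩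
    · have := mul_le_mul_of_nonneg_right (gb y hy).2 (pow_nonneg (sm_nonneg hy) i)
      rw [pow_succ]
      linarith
    · have h6 := hom_int hn (gau_sm (n := n) hε0.le) gc (fun y hy => (gb y hy).1) gh i
      rw [← hI, show n + 1 + i - 1 = n + i by omega, Nat.cast_one] at h6
      exact h6
  obtain ⟨X, hX⟩ : ∃ X, cone_H (fun y => (∑ i, y i ^ 2) * g y) X := by
    refine ⟨_, cone_int ((continuous_finsetSum _ fun i _ => (continuous_apply i).pow 2).mul gc)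
      hε0.le 3 fun y hy => ⟨mul_nonneg (cone_sq0 y) (gb y hy).1, ?_⟩, rfl⟩
    have := mul_le_mul (cone_sq hy) (gb y hy).2 (gb y hy).1 (sq_nonneg _)
    linarith
  obtain ⟨G, hG⟩ : ∃ G : ℝ, G = (n + 1) * n.factorial * I := ⟨_, rfl⟩
  have v0 : cone_H g G := by simpa only [pow_zero, mul_one, add_zero, hG] using h5 0
  have v1 : cone_H (fun y => g y * sm y ^ 1) ((n + 1) * G) := by
    have e : ((n + 1) * G : ℝ) = (n + 1) * (n + 1).factorial * I := by
      rw [hG, Nat.factorial_succ]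
      push_cast
      ring
    rw [e]
    exact h5 1
  have v2 : cone_H (fun y => g y * sm y ^ 2) ((n + 1) * (n + 2) * G) := by
    have e : ((n + 1) * (n + 2) * G : ℝ) = (n + 1) * (n + 2).factorial * I := by
      rw [hG, Nat.factorial_succ, Nat.factorial_succ]
      push_cast
      ring
    rw [e]
    exact h5 2
  have v3 : cone_H (fun y => g y * sm y ^ 3) ((n + 1) * (n + 2) * (n + 3) * G) := by
    have e : ((n + 1) * (n + 2) * (n + 3) * G : ℝ) = (n + 1) * (n + 3).factorial * I := by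
      rw [hG, Nat.factorial_succ, Nat.factorial_succ, Nat.factorial_succ]
      push_cast
      ring
    rw [e]
    exact h5 3
  have hL := hlag g ε gv gc gb g1
  have hP := (cone_add (cone_add hX (cone_smul v1 (-4))) (cone_smul v0 (2 * n))).2
  have eP : (fun y : Fin n → ℝ => (∑ i, pl (y i)) * g y) =
      fun y => (∑ i, y i ^ 2) * g y + -4 * (g y * sm y ^ 1) + 2 * n * g y := by
    funext y
    simp only [pl, Finset.sum_add_distrib, Finset.sum_sub_distrib, ← Finset.mul_sum, sm,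
      Finset.sum_const, Finset.card_univ, Fintype.card_fin, nsmul_eq_mul]
    ring
  rw [eP, hP, v0.2] at hL
  have hA := cone_mono h1 (cone_add h2 v0) fun y _ => by
    linarith [Real.add_one_le_exp (-g y)]
  have hB := cone_mono (cone_add (cone_smul hX ((n + 1) * (n + 2))) h4)
    (cone_add (cone_add h3 (cone_smul v2 (n + 2))) (cone_smul v3 (ε / 2 * ((n + 1) * (n + 2)))))
    fun y hy => by
      have a1 := mul_le_mul_of_nonneg_left (cone_exp (gb y hy).1) (cone_Q0 y)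
      have a2 : g y ^ 2 ≤ ε * sm y * g y := by
        rw [sq]
        exact mul_le_mul_of_nonneg_right (gb y hy).2 (gb y hy).1
      have a3 := mul_le_mul (cone_Q1 hy) a2 (sq_nonneg _) (by positivity)
      have a4 : Qy y * g y =
          (n + 1) * (n + 2) * ((∑ i, y i ^ 2) * g y) - (n + 2) * (g y * sm y ^ 2) := by
        unfold Qy
        ring
      linarith
  have hN : (0 : ℝ) < (n + 1) * (n + 2) := by positivity
  have hf : (0 : ℝ) < n.factorial := Nat.cast_pos.2 n.factorial_pos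
  refine le_of_mul_le_mul_left ?_ (mul_pos hN hf)
  have b1 := mul_le_mul_of_nonneg_left hL hN.le
  have b2 := mul_le_mul_of_nonneg_left hA
    (by positivity : (0 : ℝ) ≤ (n + 1) * (n + 2) * (n + 2 + c / 2))
  have b3 : ε / 2 * ((n + 1) * (n + 2)) * ((n + 1) * (n + 2) * (n + 3) * G) =
      c / 2 * ((n + 1) * (n + 2)) * G := by
    rw [← hεc]
    ring
  rw [b3] at hB
  linarith

end Vale.Agent.P254
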