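import Vale.Agent.P254.Mom

/-!
P254 Det (TASK, helper names start with detx_): the tangent inequality for log det.
det_le_exp: eigenvalues (IsHermitian.det_eq_prod_eigenvalues, IsHermitian.trace_eq_sum_eigenvalues, PosSemidef.eigenvalues_nonneg),
x ≤ exp (x - 1), Real.exp_sum.  Am = Bᵀ * B with B = √κ • (1 + θ • J), J the all ones matrix, κ = (n+1)(n+2), 2 θ + n θ^2 = 1
(θ = 1 / (√(n+1) + 1)); or use any square root of the positive semidefinite matrix Am.  Apply det_le_exp to B * cov K * Bᵀ
(PosSemidef.mul_mul_conjTranspose_same, trace_mul_cycle).  trace (Am * cov K) = V⁻¹ ∫ q (x - m) with q the quadratic form of Am and m = cen K,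
and V⁻¹ ∫ q (x - c) = V⁻¹ ∫ q (x - m) + q (m - c) ≥ V⁻¹ ∫ q (x - m) (Qx_eq, cross terms vanish).
-/

open MeasureTheory Set Matrix

noncomputable section

namespace Vale.Agent.P254

variable {n : ℕ}

theorem det_le_exp {S : Matrix (Fin n) (Fin n) ℝ} (h : S.PosSemidef) :
    S.det ≤ Real.exp (S.trace - n) := by
  rw [h.isHermitian.det_eq_prod_eigenvalues, h.isHermitian.trace_eq_sum_eigenvalues]
  simp only [RCLike.ofReal_real_eq_id, id]
  have e : ∑ i, h.isHermitian.eigenvalues i - n = ∑ i, (h.isHermitian.eigenvalues i - 1) := by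
    simp [Finset.sum_sub_distrib]
  rw [e, Real.exp_sum]
  exact Finset.prod_le_prod (fun i _ => h.eigenvalues_nonneg i) fun i _ => by
    linarith [Real.add_one_le_exp (h.isHermitian.eigenvalues i - 1)]

open scoped MatrixOrder in
theorem detx_mul {A S : Matrix (Fin n) (Fin n) ℝ} (hA : A.PosSemidef) (h : S.PosSemidef) :
    A.det * S.det ≤ Real.exp ((A * S).trace - n) := by
  obtain ⟨B, rfl⟩ := CStarAlgebra.nonneg_iff_eq_star_mul_self.1 hA.nonneg
  have h1 := det_le_exp (h.mul_mul_conjTranspose_same B)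
  rw [trace_mul_cycle, det_mul, det_mul] at h1
  rw [star_eq_conjTranspose, det_mul]
  exact le_of_eq_of_le (by ring) h1

theorem detx_psd : (Am n).PosSemidef := by
  have e : Am n = (((n : ℝ) + 1) * (n + 2)) •
      (1 + vecMulVec (fun _ => (1 : ℝ)) (star fun _ => (1 : ℝ))) := by
    ext i j
    simp [Am, vecMulVec_apply, one_apply]
  rw [e]
  exact (PosSemidef.one.add (posSemidef_vecMulVec_self_star _)).smul (by positivity)

theorem detx_exp {K : Set (Fin n → ℝ)} (hK : IsCompact K) (i j : Fin n) (a b : ℝ) :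
    ∫ x in K, (x i - a) * (x j - b) =
      (∫ x in K, x i * x j) - b * (∫ x in K, x i) - a * (∫ x in K, x j) + a * b * vol K := by
  have hi : ∀ {f : (Fin n → ℝ) → ℝ}, Continuous f → IntegrableOn f K := fun hf =>
    hf.continuousOn.integrableOn_compact hK
  have e : ∀ x : Fin n → ℝ, (x i - a) * (x j - b) =
      x i * x j - b * x i - a * x j + a * b * 1 := fun x => by ring
  simp only [e]
  rw [integral_add (hi (by fun_prop)) (hi (by fun_prop)),
    integral_sub (hi (by fun_prop)) (hi (by fun_prop)),
    integral_sub (hi (by fun_prop)) (hi (by fun_prop)), integral_const_mul, integral_const_mul,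
    integral_const_mul, vol_eq]

theorem detx_shift {K : Set (Fin n → ℝ)} (hK : IsCompact K) (hv : 0 < vol K) (i j : Fin n) (c : ℝ) :
    (vol K)⁻¹ * ∫ x in K, (x i - c) * (x j - c) = cov K i j + (cen K i - c) * (cen K j - c) := by
  simp only [cov, of_apply, detx_exp hK, cen]
  field_simp
  ring

theorem det_cov_le {K : Set (Fin n → ℝ)} (hK : IsCompact K) (hv : 0 < vol K) :
    (Am n).det * (cov K).det ≤ Real.exp ((vol K)⁻¹ * (∫ x in K, Qx x) - n) := by
  refine (detx_mul detx_psd (cov_psd hK)).trans (Real.exp_le_exp.2 (sub_le_sub_right ?_ _))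
  have hi : ∀ i j : Fin n, IntegrableOn (fun x : Fin n → ℝ =>
      Am n i j * ((x i - 1 / (n + 1)) * (x j - 1 / (n + 1)))) K := fun i j =>
    (by fun_prop : Continuous _).continuousOn.integrableOn_compact hK
  have h0 : 0 ≤ Qx (cen K) := by
    unfold Qx
    positivity
  rw [Qx_eq] at h0
  simp only [Qx_eq]
  rw [integral_finsetSum _ fun i _ => integrable_finsetSum _ fun j _ => hi i j, Finset.mul_sum,
    trace]
  refine (le_add_of_nonneg_right h0).trans (le_of_eq ?_)
  rw [← Finset.sum_add_distrib]
  refine Finset.sum_congr rfl fun i _ => ?_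
  rw [integral_finsetSum _ fun j _ => hi i j, Finset.mul_sum, diag_apply, mul_apply,
    ← Finset.sum_add_distrib]
  refine Finset.sum_congr rfl fun j _ => ?_
  have hs : cov K j i = cov K i j := by simp only [cov, of_apply, mul_comm]
  rw [integral_const_mul, mul_left_comm (vol K)⁻¹, detx_shift hK hv, hs, mul_add]

end Vale.Agent.P254
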