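import Vale.Agent.P254.Split

/-!
P254 Gauge (TASK, helper names start with gauge_ followed by x): the gauge of K in one cone.
D = aff (Lm k) (c0 n) ⁻¹' K is closed, convex (aff_comb) and a neighbourhood of 0 (bc (aff .. 0) j = 1 / (n+1) > ε, continuity, Pos.inner).
ρ = gauge D: continuous_gauge, Convex.convexOn_gauge (or gauge_add_le), gauge_smul_of_nonneg, gauge_le_one_iff_mem_closure, gauge_le_one_of_mem.
lo: for y ∈ Ort and t > ρ y, t⁻¹ • y ∈ D, so bc at j = k (bc_Lm, Pos.sub) gives sm y ≤ t.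
hi: for y ∈ Ort and t > 0 with sm y ≤ (1 - (n+1) ε) t, all bc (aff .. (t⁻¹ • y)) j ≥ ε, so ρ y ≤ t; 1 / (1 - u) ≤ 1 + 2 u for 0 ≤ u ≤ 1/2
(y = 0 or sm y = 0 separately: gauge_zero).  one: aff .. ((1/n) • 1) = fc k by bc_inj.
-/

open MeasureTheory Set Matrix

noncomputable section

namespace Vale.Agent.P254

variable {n : ℕ}

theorem gauge_xnn (k j : Fin (n + 1)) {y : Fin n → ℝ} (hy : y ∈ Ort n) :
    0 ≤ (k.insertNth (0 : ℝ) y : Fin (n + 1) → ℝ) j := by
  rcases eq_or_ne j k with rfl | h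
  · rw [Fin.insertNth_apply_same]
  · obtain ⟨l, rfl⟩ := Fin.exists_succAbove_eq h
    rw [Fin.insertNth_apply_succAbove]
    exact hy l

theorem gauge_xc (k j : Fin (n + 1)) (c : ℝ) :
    (k.insertNth (0 : ℝ) (fun _ : Fin n => c) : Fin (n + 1) → ℝ) j = if j = k then 0 else c := by
  rcases eq_or_ne j k with rfl | h
  · rw [Fin.insertNth_apply_same, if_pos rfl]
  · rw [if_neg h]
    obtain ⟨l, rfl⟩ := Fin.exists_succAbove_eq h
    rw [Fin.insertNth_apply_succAbove]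

theorem exists_gau (hn : 1 ≤ n) {K : Set (Fin n → ℝ)} {ε : ℝ} (hε : 0 < ε) (h2 : 2 * (n + 1) * ε ≤ 1)
    (hK : Pos K ε) (k : Fin (n + 1)) : ∃ ρ : (Fin n → ℝ) → ℝ, Gau ρ (2 * (n + 1) * ε) ∧
      Ort n ∩ aff (Lm k) (c0 n) ⁻¹' K = Ort n ∩ {y | ρ y ≤ 1} := by
  obtain ⟨D, hD⟩ : ∃ D, D = aff (Lm k) (c0 n) ⁻¹' K := ⟨_, rfl⟩
  have hn1 : (0 : ℝ) < n + 1 := by positivity
  have hn0 : (0 : ℝ) < n := Nat.cast_pos.2 hn
  have hcl : IsClosed D := hD ▸ hK.cpt.isClosed.preimage (continuous_aff _ _)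
  have hcv : Convex ℝ D := by
    rw [hD]
    intro x hx y hy a b ha hb h
    rw [mem_preimage, aff_comb _ _ _ _ h]
    exact hK.cvx hx hy ha hb h
  have h0 : D ∈ nhds (0 : Fin n → ℝ) := by
    have h1 : ∀ j, ∀ᶠ y in nhds (0 : Fin n → ℝ), ε < bc (aff (Lm k) (c0 n) y) j := fun j => by
      refine (((continuous_bc j).comp (continuous_aff _ _)).tendsto 0).eventually (lt_mem_nhds ?_)
      have h3 := gauge_xnn k j (y := 0) fun _ => le_rfl
      have h4 : ε < 1 / (n + 1) := by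
        rw [lt_div_iff₀ hn1]
        nlinarith [mul_pos hε hn1]
      have h5 : sm (0 : Fin n → ℝ) = 0 := by simp [sm]
      rw [Function.comp_apply, bc_Lm, h5, sub_zero]
      linarith
    filter_upwards [Filter.eventually_all.2 h1] with y hy
    rw [hD]
    exact hK.inner _ fun j => (hy j).le
  have hm : ∀ z, gauge D z ≤ 1 ↔ z ∈ D := fun z => by
    rw [gauge_le_one_iff_mem_closure hcv h0, hcl.closure_eq]
  have hom : ∀ t : ℝ, 0 ≤ t → ∀ y, gauge D (t • y) = t * gauge D y := fun t ht y =>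
    gauge_smul_of_nonneg ht y
  have hm' : ∀ t : ℝ, 0 < t → ∀ y, gauge D y ≤ t ↔ aff (Lm k) (c0 n) (t⁻¹ • y) ∈ K := fun t ht y => by
    rw [← mem_preimage, ← hD, ← hm, hom _ (inv_pos.2 ht).le, inv_mul_le_iff₀ ht, mul_one]
  refine ⟨gauge D, ⟨continuous_gauge hcv h0, ⟨convex_univ, fun x _ y _ a b ha hb _ => ?_⟩,
    fun t ht y => hom t ht.le y, fun y hy => ?_, fun y hy => ?_, ?_⟩, ?_⟩
  · refine (gauge_add_le hcv (absorbent_nhds_zero h0) _ _).trans ?_
    rw [hom a ha, hom b hb, smul_eq_mul, smul_eq_mul]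
  · refine le_of_forall_gt_imp_ge_of_dense fun t ht => ?_
    have ht0 : 0 < t := (gauge_nonneg y).trans_lt ht
    have h1 := hK.sub ((hm' t ht0 y).1 ht.le) k
    rw [bc_Lm, Fin.insertNth_apply_same, add_zero, sm_smul, le_div_iff₀ hn1, zero_mul, sub_nonneg,
      inv_mul_le_iff₀ ht0, mul_one] at h1
    exact h1
  · refine le_of_forall_gt_imp_ge_of_dense fun t ht => ?_
    have hs := sm_nonneg hy
    have hu : 0 < (n + 1) * ε := mul_pos hn1 hε
    have ht0 : 0 < t := lt_of_le_of_lt (by positivity) ht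
    refine (hm' t ht0 y).2 (hK.inner _ fun j => ?_)
    have h1 := gauge_xnn k j (y := t⁻¹ • y) fun i => mul_nonneg (inv_pos.2 ht0).le (hy i)
    have h3 : t⁻¹ * sm y ≤ 1 - (n + 1) * ε := by
      rw [inv_mul_le_iff₀ ht0]
      have h4 : 0 ≤ 1 - 2 * ((n + 1) * ε) := by linarith
      have h5 : 0 ≤ 1 - (n + 1) * ε := by linarith
      nlinarith [mul_le_mul_of_nonneg_right ht.le h5, mul_nonneg (mul_nonneg hu.le h4) hs]
    have h4 : ε ≤ (1 - t⁻¹ * sm y) / (n + 1) := by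
      rw [le_div_iff₀ hn1]
      linarith
    rw [bc_Lm, sm_smul]
    linarith
  · refine (hm' n hn0 _).2 ?_
    have e : aff (Lm k) (c0 n) ((n : ℝ)⁻¹ • fun _ : Fin n => (1 : ℝ)) = fc k := by
      have e1 : ((n : ℝ)⁻¹ • fun _ : Fin n => (1 : ℝ)) = fun _ => 1 / (n : ℝ) := by
        funext i
        simp
      have e2 : sm (fun _ : Fin n => 1 / (n : ℝ)) = 1 := by
        simp [sm, hn0.ne']
      funext i
      rw [← bc_succ (aff _ _ _) i, bc_Lm, e1, e2, gauge_xc, sub_self, zero_div, zero_add]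
      rfl
    rw [e]
    exact hK.touch k
  · rw [← hD]
    ext y
    simp only [mem_inter_iff, mem_ofPred_eq, hm]

end Vale.Agent.P254
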