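import Vale.Agent.P254.Cone
import Vale.Agent.P254.Gauge
import Vale.Agent.P254.Det

/-!
P254 Core (helper31).
-/

open MeasureTheory Set Matrix

noncomputable section

namespace Vale.Agent.P254

variable {n : ℕ}

theorem core_sum (hn : 1 ≤ n) : ∃ ε c : ℝ, 0 < ε ∧ 0 < c ∧ ∀ K : Set (Fin n → ℝ), Pos K ε →
    (n + 2 + c) * (vol (T0 n) - vol K) ≤ (∫ x in T0 n, Qx x) - ∫ x in K, Qx x := by
  obtain ⟨ε, c, hε, hc, h⟩ := cone_ineq hn
  have n0 : (0 : ℝ) < 2 * (n + 1) := by positivity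
  refine ⟨min 1 ε / (2 * (n + 1)), c, div_pos (lt_min one_pos hε) n0, hc, fun K hK => ?_⟩
  have e : 2 * (n + 1) * (min 1 ε / (2 * (n + 1))) = min 1 ε := mul_div_cancel₀ _ n0.ne'
  rw [vol_eq, vol_eq, split isCompact_T0 continuous_const, split hK.cpt continuous_const,
    split isCompact_T0 continuous_Qx, split hK.cpt continuous_Qx, ← Finset.sum_sub_distrib,
    ← Finset.sum_sub_distrib, Finset.mul_sum]
  refine Finset.sum_le_sum fun k _ => ?_
  obtain ⟨ρ, hρ, e1⟩ := exists_gau hn (div_pos (lt_min one_pos hε) n0)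
    (e.trans_le (min_le_left _ _)) hK k
  rw [e] at hρ
  have h1 := h ρ ⟨hρ.cont, hρ.cvx, hρ.hom, hρ.lo, fun y hy => (hρ.hi y hy).trans
    (mul_le_mul_of_nonneg_right (by linarith [min_le_right 1 ε]) (sm_nonneg hy)), hρ.one⟩
  simp only [T0_pre, e1, Qx_Lm, ← vol_eq]
  nlinarith [mul_le_mul_of_nonneg_left h1 (abs_nonneg (Lm k).det)]

theorem core_real {a V W d e q c m : ℝ} (ha : 0 < a) (hV : 0 < V) (hW : 0 < W) (h1 : a * e = 1)
    (h2 : a * d ≤ Real.exp (V⁻¹ * q - m)) (h3 : (m + 2 + c) * (W - V) ≤ m * W - q) :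
    d / V ^ 2 ≤ e / W ^ 2 * Real.exp (-(c * ((W - V) / V))) := by
  have h4 : V⁻¹ * q - m ≤ -(2 * ((W - V) / V)) + -(c * ((W - V) / V)) := by
    have : V⁻¹ * q - m = (q - m * V) / V := by field_simp
    rw [this, div_le_iff₀ hV]
    have : (-(2 * ((W - V) / V)) + -(c * ((W - V) / V))) * V = -(2 + c) * (W - V) := by
      field_simp
      ring
    rw [this]
    linarith
  have h5 : Real.exp (-((W - V) / V)) ≤ V / W := by
    have h := Real.add_one_le_exp ((W - V) / V)
    have : (W - V) / V + 1 = W / V := by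
      field_simp
      ring
    rw [this] at h
    rw [Real.exp_neg, ← inv_div W V]
    exact inv_anti₀ (div_pos hW hV) h
  have h6 : Real.exp (-(2 * ((W - V) / V))) ≤ (V / W) ^ 2 := by
    rw [show -(2 * ((W - V) / V)) = -((W - V) / V) + -((W - V) / V) by ring, Real.exp_add, sq]
    exact mul_le_mul h5 h5 (Real.exp_pos _).le (div_pos hV hW).le
  have h7 : a * d ≤ (V / W) ^ 2 * Real.exp (-(c * ((W - V) / V))) := by
    refine h2.trans ((Real.exp_le_exp.2 h4).trans ?_)
    rw [Real.exp_add]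
    exact mul_le_mul_of_nonneg_right h6 (Real.exp_pos _).le
  have he : e = a⁻¹ := eq_inv_of_mul_eq_one_right h1
  rw [div_le_iff₀ (by positivity), he]
  have : a⁻¹ / W ^ 2 * Real.exp (-(c * ((W - V) / V))) * V ^ 2 =
      a⁻¹ * ((V / W) ^ 2 * Real.exp (-(c * ((W - V) / V)))) := by ring
  rw [this, le_inv_mul_iff₀ ha]
  exact h7

theorem core_int {K : Set (Fin n → ℝ)} {ε : ℝ} (hK : Pos K ε) (h : ε < 1 / (n + 1)) :
    (interior K).Nonempty := by
  refine ⟨c0 n, mem_interior_iff_mem_nhds.2 ?_⟩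
  have h1 : ∀ j, bc (c0 n) j = 1 / (n + 1) := fun j => by
    refine Fin.cases ?_ (fun i => rfl) j
    simp only [bc_zero, sm, c0, Finset.sum_const, Finset.card_univ, Fintype.card_fin, nsmul_eq_mul]
    field_simp
    ring
  have h2 : ∀ᶠ x in nhds (c0 n), ∀ j, ε < bc x j := Filter.eventually_all.2 fun j =>
    (continuous_bc j).continuousAt.eventually_const_lt (h.trans_eq (h1 j).symm)
  filter_upwards [h2] with x hx using hK.inner x fun j => (hx j).le

theorem core_eq {K : Set (Fin n → ℝ)} (hc : IsCompact K) (hT : K ⊆ T0 n)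
    (hi : (interior (T0 n)).Nonempty) (h : vol (T0 n) ≤ vol K) : K = T0 n := by
  refine hT.antisymm ?_
  have h1 : volume (T0 n \ K) = 0 := by
    rw [measure_sdiff hT hc.measurableSet.nullMeasurableSet hc.measure_lt_top.ne, tsub_eq_zero_iff_le]
    exact (ENNReal.toReal_le_toReal isCompact_T0.measure_lt_top.ne hc.measure_lt_top.ne).1 h
  have h2 : interior (T0 n) \ K = ∅ :=
    ((isOpen_interior.sdiff hc.isClosed).measure_eq_zero_iff volume).1
      (measure_mono_null (sdiff_subset_sdiff_left interior_subset) h1)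
  calc T0 n ⊆ closure (T0 n) := subset_closure
    _ = closure (interior (T0 n)) := (convex_T0.closure_interior_eq_closure_of_nonempty_interior hi).symm
    _ ⊆ K := hc.isClosed.closure_subset_iff.2 (sdiff_eq_empty.1 h2)

theorem core (hn : 1 ≤ n) : ∃ ε : ℝ, 0 < ε ∧ ∀ K : Set (Fin n → ℝ), Pos K ε →
    Phi K ≤ Phi (T0 n) ∧ (Phi K = Phi (T0 n) → K = T0 n) := by
  obtain ⟨ε, c, hε, hc, h⟩ := core_sum hn
  refine ⟨min ε (1 / (2 * (n + 1))), lt_min hε (by positivity), fun K hK => ?_⟩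
  have hi : (interior K).Nonempty := core_int hK ((min_le_right _ _).trans_lt
    (one_div_lt_one_div_of_lt (by positivity) (by linarith [(Nat.cast_nonneg n : (0 : ℝ) ≤ n)])))
  have h1 := h K ⟨hK.cpt, hK.cvx, hK.sub, hK.touch, fun x hx =>
    hK.inner x fun j => (min_le_left _ _).trans (hx j)⟩
  have hV : 0 < vol K := ENNReal.toReal_pos
    (Measure.measure_pos_of_nonempty_interior volume hi).ne' hK.cpt.measure_lt_top.ne
  have hVW : vol K ≤ vol (T0 n) :=
    ENNReal.toReal_mono isCompact_T0.measure_lt_top.ne (measure_mono hK.sub)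
  have hW := hV.trans_le hVW
  have h2 : (Am n).det * (cov (T0 n)).det = 1 := by rw [← det_mul, Am_cov hn, det_one]
  have h3 : 0 ≤ (cov (T0 n)).det := (cov_psd isCompact_T0).det_nonneg
  have ha : 0 < (Am n).det := by
    by_contra h4
    nlinarith [mul_nonneg (neg_nonneg.2 (not_lt.1 h4)) h3]
  rw [int_Qx hn] at h1
  have h5 : Phi K ≤ Phi (T0 n) * Real.exp (-(c * ((vol (T0 n) - vol K) / vol K))) :=
    core_real ha hV hW h2 (det_cov_le hK.cpt hV) h1
  have h6 : 0 < Phi (T0 n) := div_pos (h3.lt_of_ne' fun h7 => by simp [h7] at h2) (by positivity)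
  have h8 : 0 ≤ c * ((vol (T0 n) - vol K) / vol K) :=
    mul_nonneg hc.le (div_nonneg (sub_nonneg.2 hVW) hV.le)
  refine ⟨h5.trans (mul_le_of_le_one_right h6.le (Real.exp_le_one_iff.2 (neg_nonpos.2 h8))),
    fun h9 => core_eq hK.cpt hK.sub (hi.mono (interior_mono hK.sub)) ?_⟩
  rw [h9, le_mul_iff_one_le_right h6, Real.one_le_exp_iff, neg_nonneg] at h5
  have h10 := nonpos_of_mul_nonpos_right h5 hc
  rw [div_nonpos_iff] at h10
  rcases h10 with h11 | h11
  · exact absurd hV h11.2.not_gt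
  · linarith [h11.1]

end Vale.Agent.P254
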