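import Mathlib

/-!
P254: the isotropic constant (definitions of the statement, FROZEN).
-/

open MeasureTheory Set Matrix

noncomputable section

namespace Vale.Agent.P254

variable {n : ℕ}

/-- Lebesgue volume. -/
def vol (K : Set (Fin n → ℝ)) : ℝ := (volume K).toReal

/-- The centroid. -/
def cen (K : Set (Fin n → ℝ)) (i : Fin n) : ℝ := (vol K)⁻¹ * ∫ x in K, x i

/-- The covariance matrix. -/
def cov (K : Set (Fin n → ℝ)) : Matrix (Fin n) (Fin n) ℝ :=
  Matrix.of fun i j => (vol K)⁻¹ * ∫ x in K, (x i - cen K i) * (x j - cen K j)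

/-- The isotropic constant. -/
def isoConst (K : Set (Fin n → ℝ)) : ℝ := ((cov K).det / vol K ^ 2) ^ ((1 : ℝ) / (2 * n))

/-- Convex bodies. -/
def IsBody (K : Set (Fin n → ℝ)) : Prop := IsCompact K ∧ Convex ℝ K ∧ (interior K).Nonempty

/-- Full-dimensional simplices. -/
def IsSimplex (K : Set (Fin n → ℝ)) : Prop :=
  ∃ p : Fin (n + 1) → Fin n → ℝ, AffineIndependent ℝ p ∧ K = convexHull ℝ (range p)

end Vale.Agent.P254
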