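import Vale.Agent.P254.SelB
import Vale.Agent.P254.Aff

/-!
P254 Sel (helper31).
-/

open MeasureTheory Set Matrix

noncomputable section

namespace Vale.Agent.P254

variable {n : ℕ}

theorem sel_bc {A : Matrix (Fin (n + 1)) (Fin (n + 1)) ℝ} (h1 : ∀ l, ∑ i, A i l = 1) (x : Fin n → ℝ) :
    bc (aff (Matrix.of fun i l => A i.succ l.succ - A i.succ 0) (fun i => A i.succ 0) x) =
      A *ᵥ bc x := by
  have h : ∑ j, (A *ᵥ bc x) j = 1 := by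
    simp only [mulVec, dotProduct]
    rw [Finset.sum_comm]
    simp only [← Finset.sum_mul, h1, one_mul, sum_bc]
  rw [← bc_tail h]
  congr 1
  funext i
  simp only [aff, Fin.tail, mulVec, dotProduct, Pi.add_apply, of_apply, Fin.sum_univ_succ, bc_zero,
    bc_succ, sm, sub_mul, Finset.sum_sub_distrib, ← Finset.mul_sum]
  ring

theorem sel_det {A : Matrix (Fin (n + 1)) (Fin (n + 1)) ℝ} (h1 : ∀ l, ∑ i, A i l = 1) (hd : A.det ≠ 0) :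
    (Matrix.of fun (i l : Fin n) => A i.succ l.succ - A i.succ 0).det ≠ 0 := by
  intro h
  obtain ⟨v, hv, h0⟩ := Matrix.exists_mulVec_eq_zero_iff.2 h
  have e1 := sel_bc h1 v
  have e2 := sel_bc h1 0
  have e3 : A *ᵥ bc v = A *ᵥ bc (0 : Fin n → ℝ) := by
    rw [← e1, ← e2]
    simp only [aff, h0, mulVec_zero]
  have e4 : A *ᵥ (bc v - bc (0 : Fin n → ℝ)) = 0 := by rw [mulVec_sub, e3, sub_self]
  exact hv (bc_inj (sub_eq_zero.1 (Matrix.eq_zero_of_mulVec_eq_zero hd e4)))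

theorem sel_eta (n : ℕ) {τ : ℝ} (hτ : 0 < τ) :
    ∃ η : ℝ, 0 < η ∧ 1 - τ < (1 + (n + 1) * η)⁻¹ ^ n := by
  have hc : ContinuousAt (fun η : ℝ => (1 + (n + 1) * η)⁻¹ ^ n) 0 :=
    (ContinuousAt.inv₀ (by fun_prop) (by simp)).pow n
  have h1 : ∀ᶠ η : ℝ in nhds 0, 1 - τ < (1 + ((n : ℝ) + 1) * η)⁻¹ ^ n :=
    hc.eventually_const_lt (by simpa using hτ)
  obtain ⟨η, h2, h3⟩ := ((h1.filter_mono nhdsWithin_le_nhds).and
    (self_mem_nhdsWithin (s := Ioi (0 : ℝ)))).exists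
  exact ⟨η, h3, h2⟩

theorem select (hn : 1 ≤ n) {ε : ℝ} (hε : 0 < ε) : ∃ η : ℝ, 0 < η ∧ ∀ K : Set (Fin n → ℝ),
    IsCompact K → Convex ℝ K → T0 n ⊆ K → (∀ x ∈ K, ∀ j, -η ≤ bc x j) →
      ∃ (M : Matrix (Fin n) (Fin n) ℝ) (b : Fin n → ℝ), M.det ≠ 0 ∧ Pos (aff M b '' K) ε := by
  obtain ⟨θ, t0, t1, t2⟩ : ∃ θ : ℝ, 0 < θ ∧ θ < 1 / 2 ∧ 2 * θ ≤ ε :=
    ⟨min (1 / 4) (ε / 2), lt_min (by norm_num) (by linarith),
      (min_le_left _ _).trans_lt (by norm_num), by linarith [min_le_right (1 / 4 : ℝ) (ε / 2)]⟩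
  obtain ⟨η, e0, e1⟩ := sel_eta n (pow_pos t0 (n + 1))
  refine ⟨η, e0, fun K hc hv hT hK => ?_⟩
  obtain ⟨A, hA, hm, hd⟩ := exists_max e0.le hT hK
  have d0 : 0 < A.det := lt_of_lt_of_le (by positivity) hd
  have hb := big_entry (adm_nonneg hT hA) hA.2 t0.le (e1.trans_le hd)
  refine ⟨_, fun i => A i.succ 0, sel_det hA.2 d0.ne', hc.image (continuous_aff _ _),
    aff_convex _ _ hv, ?_, fun k => ?_, fun y hy => ?_⟩
  · rintro _ ⟨x, hx, rfl⟩ j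
    rw [sel_bc hA.2]
    exact hA.1 x hx j
  · obtain ⟨x, hx, h⟩ := touch hn hc hv hA hm d0 k
    exact ⟨x, hx, bc_inj ((sel_bc hA.2 x).trans h)⟩
  · obtain ⟨x, hx, h⟩ := inner_mem hc hv hT hA t0.le t1 t2 hb hy
    exact ⟨x, hx, bc_inj ((sel_bc hA.2 x).trans h)⟩

end Vale.Agent.P254
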