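import Vale.Agent.P254.Aff

/-!
P254 Simp (TASK, helper names start with simp_): simplices are the affine images of T0.
vt j = fun i => if i.succ = j then 1 else 0 are the vertices of T0, x = ∑ j, bc x j • vt j.  For any p : Fin (n+1) → (Fin n → ℝ) put
M = of fun i l => p l.succ i - p 0 i, b = p 0; then aff M b x = ∑ j, bc x j • p j, so aff M b '' T0 = convexHull (range p)
(convexHull_range_eq_exists_affineCombination, or convexHull_min with aff_convex and Convex.sum_mem), and
AffineIndependent ℝ p ↔ M.det ≠ 0 (affineIndependent_iff, bc_tail, Matrix.exists_mulVec_eq_zero_iff; or affineIndependent_iff_linearIndependent_vsub).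
Conversely given M, b take p = Fin.cons b (fun l => (fun i => M i l) + b).
-/

open MeasureTheory Set Matrix

noncomputable section

namespace Vale.Agent.P254

variable {n : ℕ}

theorem simp_lin (p : Fin (n + 1) → Fin n → ℝ) (w : Fin (n + 1) → ℝ) :
    ∑ j, w j • p j =
      (Matrix.of fun i l => p l.succ i - p 0 i) *ᵥ Fin.tail w + (∑ j, w j) • p 0 := by
  funext i
  simp only [Finset.sum_apply, Pi.smul_apply, smul_eq_mul, Pi.add_apply, mulVec, dotProduct,
    Matrix.of_apply, Fin.tail, Fin.sum_univ_succ, sub_mul, Finset.sum_sub_distrib, add_mul,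
    Finset.sum_mul, mul_comm (p _ i)]
  ring

theorem simp_aff (p : Fin (n + 1) → Fin n → ℝ) (x : Fin n → ℝ) :
    aff (Matrix.of fun i l => p l.succ i - p 0 i) (p 0) x = ∑ j, bc x j • p j := by
  rw [simp_lin, sum_bc, one_smul]
  rfl

theorem simp_hull (p : Fin (n + 1) → Fin n → ℝ) :
    convexHull ℝ (range p) = aff (Matrix.of fun i l => p l.succ i - p 0 i) (p 0) '' T0 n := by
  refine Subset.antisymm (convexHull_min ?_ (aff_convex _ _ convex_T0)) ?_
  · rintro _ ⟨j, rfl⟩
    have h : bc (Fin.tail (Pi.single j (1 : ℝ) : Fin (n + 1) → ℝ)) = Pi.single j 1 :=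
      bc_tail (by simp)
    refine ⟨Fin.tail (Pi.single j (1 : ℝ) : Fin (n + 1) → ℝ), fun i => ?_, ?_⟩
    · rw [h, Pi.single_apply]
      split_ifs <;> norm_num
    · rw [simp_aff, h]
      simp [Pi.single_apply]
  · rintro _ ⟨x, hx, rfl⟩
    rw [simp_aff]
    exact (convex_convexHull ℝ _).sum_mem (fun j _ => hx j) (sum_bc x)
      fun j _ => subset_convexHull ℝ _ ⟨j, rfl⟩

theorem simp_ind (p : Fin (n + 1) → Fin n → ℝ) :
    AffineIndependent ℝ p ↔ (Matrix.of fun i l => p l.succ i - p 0 i).det ≠ 0 := by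
  rw [affineIndependent_iff_of_fintype]
  constructor
  · intro h h0
    obtain ⟨v, hv, hv0⟩ := Matrix.exists_mulVec_eq_zero_iff.2 h0
    have hs : ∑ j, (Fin.cons (-∑ i, v i) v : Fin (n + 1) → ℝ) j = 0 := by
      simp [Fin.sum_univ_succ]
    have h1 := h _ hs (by
      rw [Finset.weightedVSub_eq_linear_combination _ hs, simp_lin, hs, zero_smul, add_zero]
      exact hv0)
    exact hv (funext fun i => h1 i.succ)
  · intro h w hs h1
    rw [Finset.weightedVSub_eq_linear_combination _ hs, simp_lin, hs, zero_smul, add_zero] at h1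
    have h2 : ∀ i : Fin n, w i.succ = 0 := congrFun (Matrix.eq_zero_of_mulVec_eq_zero h h1)
    intro j
    refine Fin.cases ?_ h2 j
    simpa [Fin.sum_univ_succ, h2] using hs

theorem simplex_iff {S : Set (Fin n → ℝ)} : IsSimplex S ↔
    ∃ (M : Matrix (Fin n) (Fin n) ℝ) (b : Fin n → ℝ), M.det ≠ 0 ∧ S = aff M b '' T0 n := by
  constructor
  · rintro ⟨p, hp, rfl⟩
    exact ⟨_, _, (simp_ind p).1 hp, simp_hull p⟩
  · rintro ⟨M, b, hM, rfl⟩
    let p : Fin (n + 1) → Fin n → ℝ := Fin.cons b fun l => (fun i => M i l) + b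
    have h : (Matrix.of fun i l => p l.succ i - p 0 i) = M := by
      ext i l
      simp [p]
    refine ⟨p, (simp_ind p).2 (h.symm ▸ hM), ?_⟩
    rw [simp_hull, h]
    rfl

theorem aff_aff (M M' : Matrix (Fin n) (Fin n) ℝ) (b b' x : Fin n → ℝ) :
    aff M' b' (aff M b x) = aff (M' * M) (aff M' b' b) x := by
  simp only [aff, mulVec_add, mulVec_mulVec, add_assoc]

end Vale.Agent.P254
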