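import Vale.Agent.P254.Core
import Vale.Agent.P254.Sel
import Vale.Agent.P254.Simp

/-!
P254 Final (helper31).
-/

open MeasureTheory Set Matrix

noncomputable section

namespace Vale.Agent.P254

variable {n : ℕ}

theorem final_std (hn : 1 ≤ n) : ∃ ε : ℝ, 0 < ε ∧ ∀ K : Set (Fin n → ℝ), IsCompact K → Convex ℝ K →
    T0 n ⊆ K → (∀ x ∈ K, ∀ j, -ε ≤ bc x j) →
      Phi K ≤ Phi (T0 n) ∧ (Phi K = Phi (T0 n) → IsSimplex K) := by
  obtain ⟨ε, hε, h1⟩ := core hn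
  obtain ⟨η, hη, h2⟩ := select hn hε
  refine ⟨η, hη, fun K hc hv hT hK => ?_⟩
  obtain ⟨M, b, hM, hP⟩ := h2 K hc hv hT hK
  obtain ⟨h3, h4⟩ := h1 _ hP
  rw [Phi_aff hM b hc] at h3 h4
  refine ⟨h3, fun h => ?_⟩
  obtain ⟨M', b', hM', i1, -⟩ := aff_inv hM b
  refine simplex_iff.2 ⟨M', b', hM', ?_⟩
  rw [← h4 h, image_image]
  simp only [i1, image_id']

theorem local_max (hn : 1 ≤ n) : ∃ ε : ℝ, 0 < ε ∧ ∀ (S K : Set (Fin n → ℝ)) (z : Fin n → ℝ),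
    IsSimplex S → IsBody K → z ∈ S → S ⊆ K → K ⊆ (fun x => z + (1 + ε) • (x - z)) '' S →
      isoConst K ≤ isoConst S ∧ (isoConst K = isoConst S → IsSimplex K) := by
  obtain ⟨ε, hε, h1⟩ := final_std hn
  refine ⟨ε, hε, fun S K z hS hK hz hSK hKS => ?_⟩
  obtain ⟨M, b, hM, rfl⟩ := simplex_iff.1 hS
  obtain ⟨M', b', hM', i1, i2⟩ := aff_inv hM b
  obtain ⟨h3, h4⟩ := h1 (aff M' b' '' K) (hK.1.image (continuous_aff _ _)) (aff_convex _ _ hK.2.1)
    (fun x hx => ⟨_, hSK ⟨x, hx, rfl⟩, i1 x⟩) (by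
      rintro _ ⟨x, hx, rfl⟩ j
      obtain ⟨_, ⟨w, hw, rfl⟩, rfl⟩ := hKS hx
      obtain ⟨u, hu, rfl⟩ := hz
      have e : aff M b u + (1 + ε) • (aff M b w - aff M b u) =
          aff M b ((1 + ε) • w + (-ε) • u) := by
        rw [aff_comb M b w u (by ring)]
        module
      have h5 : bc u j ≤ 1 := by
        rw [← sum_bc u]
        exact Finset.single_le_sum (fun i _ => hu i) (Finset.mem_univ j)
      simp only [e, i1]
      rw [bc_comb w u (by ring)]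
      nlinarith [hw j, hu j])
  rw [Phi_aff hM' b' hK.1] at h3 h4
  have e1 : isoConst (aff M b '' T0 n) = Phi (T0 n) ^ ((1 : ℝ) / (2 * n)) := by
    rw [← Phi_aff hM b isCompact_T0]
    rfl
  have e2 : isoConst K = Phi K ^ ((1 : ℝ) / (2 * n)) := rfl
  have n0 : (0 : ℝ) < 1 / (2 * n) := by
    have : (0 : ℝ) < n := by exact_mod_cast hn
    positivity
  rw [e1, e2]
  refine ⟨Real.rpow_le_rpow (Phi_nonneg hK.1) h3 n0.le, fun h => ?_⟩
  obtain ⟨M₁, b₁, hM₁, h6⟩ := simplex_iff.1 (h4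
    ((Real.rpow_left_inj (Phi_nonneg hK.1) (Phi_nonneg isCompact_T0) n0.ne').1 h))
  refine simplex_iff.2 ⟨M * M₁, aff M b b₁, by rw [det_mul]; exact mul_ne_zero hM hM₁, ?_⟩
  simp only [← aff_aff]
  rw [← image_image, ← h6, image_image]
  simp only [i2, image_id']

end Vale.Agent.P254
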