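import Vale.Agent.P254.Basic

/-!
P254 Fub (TASK, helper names start with fub_): Fubini for product exponentials.
EX f = ∫ y, f y * ∏ i, e (y i) with e = indicator (Ici 0) (exp (-t)) (integral_indicator, Real.exp_sum, Finset.prod_indicator style lemma).
int_poly: (1 + s)^j e^(-s) ≤ C e^(-s/2) (Real.pow_div_factorial_le_exp), and ∏ i, indicator (Ici 0) (exp (-t/2)) (y i) is integrable
(Integrable.fintype_prod).  EX_prod: integral_fintype_prod_volume_eq_prod (or integral_fintype_prod_eq_prod), integral_Ici_eq_integral_Ioi.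
EX_one, EX_coord, EX_coord2 follow with f i = 1, Function.update or if-then-else families; ∫ t^k e^(-t) = k! (Real.Gamma_eq_integral).
fub: volume_preserving_piFinSuccAbove (fun _ => ℝ) i (MeasurableEquiv.piFinSuccAbove, symm is i.insertNth), integral_prod_symm,
Fin.sum_univ_succAbove, Fin.forall_iff_succAbove.
-/

open MeasureTheory Set Matrix

noncomputable section

namespace Vale.Agent.P254

variable {n : ℕ}

theorem fub_res (n : ℕ) : (volume : Measure (Fin n → ℝ)).restrict (Ort n) =
    Measure.pi fun _ => (volume : Measure ℝ).restrict (Ioi 0) := by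
  have : Ort n = univ.pi fun _ => Ici (0 : ℝ) := by
    ext y
    simp [Ort, Pi.le_def]
  rw [this, volume_pi, Measure.restrict_pi_pi, restrict_Ioi_eq_restrict_Ici]

theorem fub_exp (c : ℝ) (y : Fin n → ℝ) : Real.exp (c * sm y) = ∏ i, Real.exp (c * y i) := by
  rw [← Real.exp_sum, sm, Finset.mul_sum]

theorem fub_gam (k : ℕ) : ∫ t in Ioi (0 : ℝ), t ^ k * Real.exp (-t) = k.factorial := by
  rw [← Real.Gamma_nat_eq_factorial, Real.Gamma_eq_integral (by positivity)]
  simp only [add_sub_cancel_right, Real.rpow_natCast, mul_comm]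

theorem int_poly {F : (Fin n → ℝ) → ℝ} (hm : Measurable F) {B : ℝ} {j : ℕ}
    (hb : ∀ y ∈ Ort n, |F y| ≤ B * (1 + sm y) ^ j) :
    IntegrableOn (fun y => F y * Real.exp (-sm y)) (Ort n) := by
  have hi : IntegrableOn (fun y : Fin n → ℝ => Real.exp (-(1 / 2) * sm y)) (Ort n) := by
    unfold IntegrableOn
    rw [fub_res]
    simp only [fub_exp]
    exact Integrable.fintype_prod (f := fun _ t => Real.exp (-(1 / 2) * t))
      fun _ => exp_neg_integrableOn_Ioi 0 (by norm_num)
  refine Integrable.mono' (hi.const_mul (|B| * (2 ^ j * j.factorial * Real.exp (1 / 2))))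
    (hm.mul (Real.continuous_exp.comp continuous_sm.neg).measurable).aestronglyMeasurable ?_
  refine (ae_restrict_iff' isClosed_Ort.measurableSet).2 (Filter.Eventually.of_forall fun y hy => ?_)
  have hs := sm_nonneg hy
  have h1 := Real.pow_div_factorial_le_exp ((1 + sm y) / 2) (by positivity) j
  rw [div_le_iff₀ (by positivity), div_pow, div_le_iff₀ (by positivity)] at h1
  have h2 : Real.exp ((1 + sm y) / 2) * Real.exp (-sm y) =
      Real.exp (1 / 2) * Real.exp (-(1 / 2) * sm y) := by
    rw [← Real.exp_add, ← Real.exp_add]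
    ring_nf
  rw [Real.norm_eq_abs, abs_mul, abs_of_pos (Real.exp_pos _)]
  calc |F y| * Real.exp (-sm y)
      ≤ |B| * (Real.exp ((1 + sm y) / 2) * j.factorial * 2 ^ j) * Real.exp (-sm y) := by
        gcongr
        exact (hb y hy).trans (mul_le_mul (le_abs_self B) h1 (by positivity) (abs_nonneg B))
    _ = |B| * (2 ^ j * j.factorial) * (Real.exp ((1 + sm y) / 2) * Real.exp (-sm y)) := by ring
    _ = _ := by
        rw [h2]
        ring

theorem EX_prod (f : Fin n → ℝ → ℝ) :
    EX (fun y : Fin n → ℝ => ∏ i, f i (y i)) = ∏ i, ∫ t in Ioi (0 : ℝ), f i t * Real.exp (-t) := by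
  unfold EX
  rw [fub_res, ← integral_fintype_prod_eq_prod (fun i t => f i t * Real.exp (-t))]
  refine integral_congr_ae (Filter.Eventually.of_forall fun y => ?_)
  have := fub_exp (-1) y
  simp only [neg_mul, one_mul] at this
  simp only [this, Finset.prod_mul_distrib]

theorem fub_pow (k : Fin n → ℕ) :
    EX (fun y : Fin n → ℝ => ∏ i, y i ^ k i) = ∏ i, ((k i).factorial : ℝ) := by
  rw [EX_prod fun i t => t ^ k i]
  simp only [fub_gam]

theorem fub_single (i : Fin n) (a : ℕ) (y : Fin n → ℝ) :
    ∏ l, y l ^ (Pi.single i a : Fin n → ℕ) l = y i ^ a := by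
  rw [Finset.prod_eq_single i (fun l _ hl => by simp [hl]) (by simp), Pi.single_eq_same]

theorem EX_one : EX (fun _ : Fin n → ℝ => 1) = 1 := by
  simpa using fub_pow (n := n) fun _ => 0

theorem EX_coord (i : Fin n) : EX (fun y : Fin n → ℝ => y i) = 1 := by
  have := fub_pow (Pi.single i 1 : Fin n → ℕ)
  simp only [fub_single, pow_one] at this
  rw [this]
  refine Finset.prod_eq_one fun l _ => ?_
  by_cases hl : l = i <;> simp [hl]

theorem EX_coord2 (i j : Fin n) :
    EX (fun y : Fin n → ℝ => y i * y j) = if i = j then 2 else 1 := by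
  have := fub_pow (Pi.single i 1 + Pi.single j 1 : Fin n → ℕ)
  simp only [Pi.add_apply, pow_add, Finset.prod_mul_distrib, fub_single, pow_one] at this
  rw [this]
  split_ifs with h
  · subst h
    rw [Finset.prod_eq_single i (fun l _ hl => by simp [hl]) (by simp)]
    simp
  · refine Finset.prod_eq_one fun l _ => ?_
    by_cases hl : l = i
    · simp [hl, h]
    · by_cases hl' : l = j <;> simp [hl, hl', Ne.symm h]

theorem fub (i : Fin (n + 1)) {F : (Fin (n + 1) → ℝ) → ℝ}
    (hF : IntegrableOn (fun y => F y * Real.exp (-sm y)) (Ort (n + 1)))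
    (h : ∀ z ∈ Ort n, 0 ≤ ∫ t in Ioi (0 : ℝ), F (i.insertNth t z) * Real.exp (-t)) : 0 ≤ EX F := by
  have hp := (measurePreserving_piFinSuccAbove
    (fun _ : Fin (n + 1) => (volume : Measure ℝ).restrict (Ioi 0)) i).symm
  unfold IntegrableOn at hF
  unfold EX
  rw [fub_res] at hF ⊢
  rw [← hp.integral_comp']
  refine le_of_le_of_eq ?_ (integral_prod_symm _
    ((hp.integrable_comp_emb (MeasurableEquiv.measurableEmbedding _)).2 hF)).symm
  rw [← fub_res]
  refine setIntegral_nonneg isClosed_Ort.measurableSet fun z hz => ?_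
  have e : ∀ t : ℝ, Real.exp (-sm (i.insertNth t z : Fin (n + 1) → ℝ)) =
      Real.exp (-t) * Real.exp (-sm z) := fun t => by
    rw [← Real.exp_add, sm, Fin.sum_univ_succAbove _ i]
    simp [sm, add_comm]
  change 0 ≤ ∫ t in Ioi (0 : ℝ), F (i.insertNth t z) * Real.exp (-sm (i.insertNth t z))
  simp only [e, ← mul_assoc]
  rw [integral_mul_const]
  exact mul_nonneg (h z hz) (Real.exp_pos _).le

end Vale.Agent.P254
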