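import Vale.Agent.P254.One
import Vale.Agent.P254.Fub

/-!
P254 Lag (TASK, helper names start with lag_): the quantitative Laguerre inequality.
EX_half: write both sides as integrals over the whole space of indicators; the substitution y ↦ (1/2) • (1 + y)
(Measure.integral_comp_smul, integral_add_left_eq_self, Module.finrank_fin_fun): for w = (1/2) • (1 + y),
indicator (Ort) w * ∏ wk (w j) * exp (-sm w) = 2^n * indicator (Ort) y * exp (-sm y).
lag: n = m + 1.  0 ≤ wk ≤ 4 (exp (1/2) ≤ 2).  ω i y = ∏ j with j.val < i, wk (y j) for i : ℕ, a i = EX (g * ω i).  a 0 = EX g,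
a n = EX (g ((1/2) • (1 + y))) ≤ EX g / 2 (convexity, g 1 ≤ 0).  For i : Fin n, ω i (i.insertNth t z) does not depend on t, 0 ≤ ω i ≤ 4^n, and
ω (i + 1) y = ω i y * wk (y i).  By fub and one_B: 0 ≤ EX (g * ω i * (pl (y i) - 1 + wk (y i))); by fub and one_A:
0 ≤ EX (g * (4^n - ω i) * pl (y i)).  So a i - a (i + 1) ≤ 4^n * EX (g * pl (y i)); sum up (Finset.sum_range_sub'), c = 1 / (2 * 4^n).
t ↦ g (i.insertNth t z) is convex on univ (insertNth is affine in t).  Integrability: int_poly.
-/

open MeasureTheory Set Matrix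

noncomputable section

namespace Vale.Agent.P254

variable {n : ℕ}

theorem lag_exp (y : Fin n → ℝ) : Real.exp (-sm y) = ∏ j, Real.exp (-y j) := by
  rw [← Real.exp_sum, Finset.sum_neg_distrib, sm]

theorem EX_half (g : (Fin n → ℝ) → ℝ) : EX (fun y => g y * ∏ j, wk (y j)) =
    EX (fun y => g ((1 / 2 : ℝ) • ((fun _ => 1) + y))) := by
  have hm : MeasurableSet (Ort n) := isClosed_Ort.measurableSet
  set G := (Ort n).indicator fun y => (g y * ∏ j, wk (y j)) * Real.exp (-sm y) with hG
  have h1 : ∀ y : Fin n → ℝ, G ((1 / 2 : ℝ) • ((fun _ => 1) + y)) = 2 ^ n * (Ort n).indicator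
      (fun y => g ((1 / 2 : ℝ) • ((fun _ => 1) + y)) * Real.exp (-sm y)) y := fun y => by
    have e : ∀ j, ((1 / 2 : ℝ) • ((fun _ => 1) + y) : Fin n → ℝ) j = 1 / 2 * (1 + y j) :=
      fun _ => rfl
    by_cases hy : y ∈ Ort n
    · have hw : (1 / 2 : ℝ) • ((fun _ => 1) + y) ∈ Ort n := fun j => by
        rw [e]; linarith [hy j]
      have e2 : ∀ j, wk (1 / 2 * (1 + y j)) * Real.exp (-(1 / 2 * (1 + y j))) =
          2 * Real.exp (-y j) := fun j => by
        rw [wk, if_pos (by linarith [hy j]), mul_assoc, ← Real.exp_add]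
        congr 2
        ring
      rw [hG, indicator_of_mem hw, indicator_of_mem hy, lag_exp, lag_exp, mul_assoc,
        ← Finset.prod_mul_distrib]
      simp only [e, e2, Finset.prod_mul_distrib, Finset.prod_const, Finset.card_univ,
        Fintype.card_fin]
      ring
    · obtain ⟨j, hj⟩ := not_forall.1 hy
      rw [indicator_of_notMem hy, mul_zero, hG]
      refine indicator_apply_eq_zero.2 fun _ => ?_
      rw [Finset.prod_eq_zero (Finset.mem_univ j) (by
        rw [e, wk, if_neg (by linarith [not_le.1 hj])]), mul_zero, zero_mul]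
  have h2 := integral_add_left_eq_self (μ := volume) (fun y => G ((1 / 2 : ℝ) • y)) fun _ => 1
  simp only [h1] at h2
  rw [integral_const_mul, Measure.integral_comp_smul, Module.finrank_fin_fun, one_div, inv_pow,
    inv_inv, abs_of_pos (by positivity), smul_eq_mul, hG, integral_indicator hm,
    integral_indicator hm, ← one_div] at h2
  exact (mul_left_cancel₀ (by positivity) h2).symm

theorem lag_wk (t : ℝ) : 0 ≤ wk t ∧ wk t ≤ 4 := by
  rw [wk]
  split_ifs with h
  · refine ⟨by positivity, ?_⟩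
    have h1 : Real.exp (1 - t) ≤ Real.exp (1 / 2) := Real.exp_le_exp.2 (by linarith)
    have h2 : Real.exp (1 / 2) * Real.exp (1 / 2) < 2.7182818286 := by
      rw [← Real.exp_add, add_halves]; exact Real.exp_one_lt_d9
    nlinarith [Real.exp_pos (1 / 2)]
  · norm_num

theorem lag_wk_meas : Measurable wk :=
  Measurable.ite measurableSet_Ici (by fun_prop) measurable_const

/-- The initial products of the weights. -/
def lagOm (i : ℕ) (y : Fin n → ℝ) : ℝ := ∏ j : Fin n with j.val < i, wk (y j)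

theorem lag_om (i : ℕ) (y : Fin n → ℝ) : 0 ≤ lagOm i y ∧ lagOm i y ≤ 4 ^ n := by
  refine ⟨Finset.prod_nonneg fun j _ => (lag_wk _).1, ?_⟩
  refine (Finset.prod_le_prod (fun j _ => (lag_wk _).1) fun j _ => (lag_wk _).2).trans ?_
  rw [Finset.prod_const]
  exact pow_le_pow_right₀ (by norm_num) ((Finset.card_le_univ _).trans_eq (Fintype.card_fin n))

theorem lag_om_meas (i : ℕ) : Measurable (lagOm (n := n) i) :=
  Finset.measurable_prod _ fun j _ => lag_wk_meas.comp (measurable_pi_apply j)

theorem lag_om_succ (i : Fin n) (y : Fin n → ℝ) : lagOm (i + 1) y = lagOm i y * wk (y i) := by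
  have e : (Finset.univ.filter fun j : Fin n => j.val < i + 1) =
      insert i (Finset.univ.filter fun j : Fin n => j.val < i) := by
    ext j
    simp only [Finset.mem_filter, Finset.mem_univ, true_and, Finset.mem_insert, Fin.ext_iff]
    omega
  rw [lagOm, lagOm, e, Finset.prod_insert (by simp), mul_comm]

theorem lag_om_ins (i : Fin (n + 1)) (t : ℝ) (z : Fin n → ℝ) :
    lagOm i (i.insertNth t z : Fin (n + 1) → ℝ) = lagOm i (i.insertNth 0 z : Fin (n + 1) → ℝ) := by
  refine Finset.prod_congr rfl fun j hj => ?_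
  obtain ⟨k, rfl⟩ := Fin.exists_succAbove_eq (x := j) (y := i)
    (Fin.ne_of_val_ne (Finset.mem_filter.1 hj).2.ne)
  simp only [Fin.insertNth_apply_succAbove]

theorem lag_int {g φ : (Fin n → ℝ) → ℝ} {B C : ℝ} (hg : Continuous g)
    (hb : ∀ y ∈ Ort n, 0 ≤ g y ∧ g y ≤ B * sm y) (hφ : Measurable φ)
    (h : ∀ y ∈ Ort n, |φ y| ≤ C * (1 + sm y) ^ 2) :
    IntegrableOn (fun y => g y * φ y * Real.exp (-sm y)) (Ort n) := by
  refine int_poly (B := |B| * C) (j := 3) (hg.measurable.mul hφ) fun y hy => ?_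
  have h0 := sm_nonneg hy
  have h1 : |g y| ≤ |B| * (1 + sm y) := by
    rw [abs_of_nonneg (hb y hy).1]
    nlinarith [(hb y hy).2, mul_le_mul_of_nonneg_right (le_abs_self B) h0, abs_nonneg B]
  rw [abs_mul]
  exact (mul_le_mul h1 (h y hy) (abs_nonneg _) (by positivity)).trans_eq (by ring)

theorem lag_pl {y : Fin n → ℝ} (hy : y ∈ Ort n) (i : Fin n) :
    |pl (y i)| ≤ 4 * (1 + sm y) ^ 2 := by
  have h0 := hy i
  have h1 := le_sm hy i
  rw [pl, abs_le]
  constructor <;> nlinarith

theorem lag_line {g : (Fin (n + 1) → ℝ) → ℝ} {B : ℝ} (hc : ConvexOn ℝ univ g)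
    (hb : ∀ y ∈ Ort (n + 1), 0 ≤ g y ∧ g y ≤ B * sm y) (i : Fin (n + 1)) {z : Fin n → ℝ}
    (hz : z ∈ Ort n) : (ConvexOn ℝ univ fun t : ℝ => g (i.insertNth t z)) ∧
      ∀ t : ℝ, 0 ≤ t → |g (i.insertNth t z)| ≤ |B| * (1 + sm z) * (1 + t) := by
  refine ⟨⟨convex_univ, fun s _ t _ a b ha hb' h => ?_⟩, fun t ht => ?_⟩
  · refine le_of_eq_of_le (congrArg g (funext ?_)) (hc.2 (mem_univ _) (mem_univ _) ha hb' h)
    rw [Fin.forall_iff_succAbove i]
    refine ⟨by simp, fun k => ?_⟩
    simp only [Fin.insertNth_apply_succAbove, Pi.add_apply, Pi.smul_apply, smul_eq_mul]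
    rw [← add_mul, h, one_mul]
  · have hm : (i.insertNth t z : Fin (n + 1) → ℝ) ∈ Ort (n + 1) := by
      refine (Fin.forall_iff_succAbove i).2 ⟨by simpa using ht, fun k => ?_⟩
      simpa using hz k
    have e : sm (i.insertNth t z : Fin (n + 1) → ℝ) = t + sm z := by
      rw [sm, Fin.sum_univ_succAbove _ i]
      simp [sm]
    have h0 := sm_nonneg hz
    have h1 := (hb _ hm).2
    rw [e] at h1
    rw [abs_of_nonneg (hb _ hm).1]
    nlinarith [mul_le_mul_of_nonneg_right (le_abs_self B) (add_nonneg ht h0), abs_nonneg B,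
      mul_nonneg (abs_nonneg B) (mul_nonneg h0 ht)]

theorem lag (hn : 1 ≤ n) : ∃ c : ℝ, 0 < c ∧ ∀ (g : (Fin n → ℝ) → ℝ) (B : ℝ), ConvexOn ℝ univ g →
    Continuous g → (∀ y ∈ Ort n, 0 ≤ g y ∧ g y ≤ B * sm y) → g (fun _ => 1) ≤ 0 →
      c * EX g ≤ EX fun y => (∑ i, pl (y i)) * g y := by
  obtain ⟨m, rfl⟩ : ∃ m, n = m + 1 := ⟨n - 1, by omega⟩
  refine ⟨1 / (2 * 4 ^ (m + 1)), by positivity, fun g B hc hg hb h1 => ?_⟩
  have hm : MeasurableSet (Ort (m + 1)) := isClosed_Ort.measurableSet
  have mp : ∀ i : Fin (m + 1), Measurable fun y : Fin (m + 1) → ℝ => pl (y i) := fun i => by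
    unfold pl; fun_prop
  have i1 : ∀ k : ℕ, IntegrableOn (fun y => g y * lagOm k y * Real.exp (-sm y)) (Ort (m + 1)) :=
    fun k => lag_int (C := 4 ^ (m + 1)) hg hb (lag_om_meas k) fun y hy => by
      rw [abs_of_nonneg (lag_om k y).1]
      exact (lag_om k y).2.trans (le_mul_of_one_le_right (by positivity)
        (one_le_pow₀ (by linarith [sm_nonneg hy])))
  have i2 := fun i => lag_int hg hb (mp i) fun y hy => lag_pl hy i
  have i3 : ∀ i : Fin (m + 1), IntegrableOn
      (fun y => g y * (lagOm i y * pl (y i)) * Real.exp (-sm y)) (Ort (m + 1)) :=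
    fun i => lag_int (C := 4 ^ (m + 1) * 4) hg hb ((lag_om_meas i).mul (mp i)) fun y hy => by
      rw [abs_mul, abs_of_nonneg (lag_om i y).1, mul_assoc]
      exact mul_le_mul (lag_om i y).2 (lag_pl hy i) (abs_nonneg _) (by positivity)
  set a : ℕ → ℝ := fun k => EX fun y => g y * lagOm k y with ha
  have st : ∀ i : Fin (m + 1), a i - a (i + 1) ≤ 4 ^ (m + 1) * EX fun y => g y * pl (y i) := by
    intro i
    have e1 : (fun y => g y * lagOm i y * (pl (y i) - 1 + wk (y i)) * Real.exp (-sm y)) = fun y =>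
        g y * (lagOm i y * pl (y i)) * Real.exp (-sm y) - g y * lagOm i y * Real.exp (-sm y) +
          g y * lagOm (i + 1) y * Real.exp (-sm y) := by
      funext y; rw [lag_om_succ]; ring
    have e2 : (fun y => g y * (4 ^ (m + 1) - lagOm i y) * pl (y i) * Real.exp (-sm y)) = fun y =>
        4 ^ (m + 1) * (g y * pl (y i) * Real.exp (-sm y)) -
          g y * (lagOm i y * pl (y i)) * Real.exp (-sm y) := by
      funext y; ring
    have p1 := fub i (F := fun y => g y * lagOm i y * (pl (y i) - 1 + wk (y i)))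
      (by rw [e1]; exact ((i3 i).sub (i1 i)).add (i1 _)) fun z hz => by
        have h := mul_nonneg (lag_om i (i.insertNth 0 z : Fin (m + 1) → ℝ)).1
          (one_B (lag_line hc hb i hz).1 (lag_line hc hb i hz).2)
        rw [← integral_const_mul] at h
        refine h.trans_eq (integral_congr_ae (ae_of_all _ fun t => ?_))
        simp only [Fin.insertNth_apply_same, lag_om_ins i t z]
        ring
    have p2 := fub i (F := fun y => g y * (4 ^ (m + 1) - lagOm i y) * pl (y i))
      (by rw [e2]; exact ((i2 i).const_mul _).sub (i3 i)) fun z hz => by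
        have h := mul_nonneg (sub_nonneg.2 (lag_om i (i.insertNth 0 z : Fin (m + 1) → ℝ)).2)
          (one_A (lag_line hc hb i hz).1 (lag_line hc hb i hz).2)
        rw [← integral_const_mul] at h
        refine h.trans_eq (integral_congr_ae (ae_of_all _ fun t => ?_))
        simp only [Fin.insertNth_apply_same, lag_om_ins i t z]
        ring
    have i4 : IntegrableOn (fun y => g y * (lagOm i y * pl (y i)) * Real.exp (-sm y) -
        g y * lagOm i y * Real.exp (-sm y)) (Ort (m + 1)) := (i3 i).sub (i1 i)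
    rw [EX, e1, integral_add i4 (i1 _), integral_sub (i3 i) (i1 i)] at p1
    rw [EX, e2, integral_sub ((i2 i).const_mul _) (i3 i), integral_const_mul] at p2
    simp only [ha, EX]
    linarith
  have a0 : a 0 = EX g := by simp [ha, lagOm]
  have an : a (m + 1) ≤ 1 / 2 * EX g := by
    have e : a (m + 1) = EX fun y => g y * ∏ j, wk (y j) := by
      simp only [ha, lagOm, Fin.is_lt, Finset.filter_true]
    have i0 := i1 0
    simp only [lagOm, Nat.not_lt_zero, Finset.filter_false, Finset.prod_empty, mul_one] at i0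
    rw [e, EX_half, EX, EX, ← integral_const_mul]
    refine integral_mono_of_nonneg ((ae_restrict_iff' hm).2 (ae_of_all _ fun y hy => ?_))
      (i0.const_mul _) (ae_of_all _ fun y => ?_)
    · refine mul_nonneg (hb _ fun j => ?_).1 (Real.exp_pos _).le
      change 0 ≤ 1 / 2 * (1 + y j)
      linarith [hy j]
    · have h := hc.2 (mem_univ fun _ => 1) (mem_univ y) one_half_pos.le one_half_pos.le
        (add_halves 1)
      rw [← smul_add, smul_eq_mul, smul_eq_mul] at h
      simp only [← mul_assoc]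
      exact mul_le_mul_of_nonneg_right (by linarith) (Real.exp_pos _).le
  have s1 := Finset.sum_le_sum fun i (_ : i ∈ Finset.univ) => st i
  rw [Fin.sum_univ_eq_sum_range (fun i => a i - a (i + 1)), Finset.sum_range_sub',
    ← Finset.mul_sum] at s1
  have s2 : (EX fun y => (∑ i, pl (y i)) * g y) = ∑ i, EX fun y => g y * pl (y i) := by
    simp only [EX]
    rw [← integral_finsetSum _ fun i _ => i2 i]
    refine integral_congr_ae (ae_of_all _ fun y => ?_)
    simp only [← Finset.sum_mul, ← Finset.mul_sum]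
    ring
  rw [s2, one_div, inv_mul_le_iff₀ (by positivity)]
  linarith

end Vale.Agent.P254
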