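import Vale.Agent.P254.Aff
import Vale.Agent.P254.Fub
import Vale.Agent.P254.Hom

/-!
P254 Mom (TASK, helper names start with mom_): moments of the standard simplex.
hom_int for ρ = sm (gau_sm le_rfl), i = 0, T0_eq, and EX_one, EX_coord, EX_coord2:  n! vol T0 = 1, (n+1)! ∫ x i = 1,
(n+2)! ∫ x i * x j = 1 + δ i j.  So cen = 1/(n+1), cov i j = (1 + δ)/((n+1)(n+2)) - 1/(n+1)^2, and Am * cov = 1 (ext, Finset.sum_ite_eq, field_simp).
int_Qx: bc_zero, bc_succ, Fin.sum_univ_succ, expand; or Qx x = ∑ i j, Am i j (x i - c)(x j - c) and the trace of Am * cov.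
-/

open MeasureTheory Set Matrix

noncomputable section

namespace Vale.Agent.P254

variable {n : ℕ}

theorem mom_h (hn : 1 ≤ n) {h : (Fin n → ℝ) → ℝ} {j : ℕ} (hc : Continuous h)
    (h0 : ∀ y ∈ Ort n, 0 ≤ h y) (hh : ∀ t : ℝ, 0 < t → ∀ y, h (t • y) = t ^ j * h y) :
    EX h = (n + j).factorial * ∫ y in T0 n, h y := by
  have h1 := hom_int hn (gau_sm (n := n) le_rfl) hc h0 hh 0
  simp only [pow_zero, mul_one, add_zero] at h1
  have h2 : ((n + j).factorial : ℝ) = (n + j) * (n + j - 1).factorial := by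
    rw [← Nat.mul_factorial_pred (n := n + j) (by omega)]
    push_cast
    rfl
  rw [EX, h1, h2, T0_eq]

theorem vol_T0 (hn : 1 ≤ n) : vol (T0 n) = 1 / n.factorial := by
  have h1 := mom_h hn (h := fun _ => (1 : ℝ)) (j := 0) continuous_const (fun _ _ => zero_le_one)
    (fun _ _ _ => by simp)
  rw [EX_one, add_zero, ← vol_eq] at h1
  have : (n.factorial : ℝ) ≠ 0 := by positivity
  field_simp
  linarith

theorem mom_pos (hn : 1 ≤ n) : 0 < vol (T0 n) := by
  rw [vol_T0 hn]
  positivity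

theorem mom_1 (hn : 1 ≤ n) (i : Fin n) : ∫ x in T0 n, x i = vol (T0 n) / (n + 1) := by
  have h1 := mom_h hn (h := fun y => y i) (j := 1) (continuous_apply i) (fun _ h => h i)
    (fun _ _ _ => by simp)
  rw [EX_coord, Nat.factorial_succ] at h1
  push_cast at h1
  have : (n.factorial : ℝ) ≠ 0 := by positivity
  rw [vol_T0 hn]
  field_simp
  linarith

theorem mom_2 (hn : 1 ≤ n) (i j : Fin n) :
    ∫ x in T0 n, x i * x j = ((if i = j then 1 else 0) + 1) * vol (T0 n) / ((n + 1) * (n + 2)) := by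
  have h1 := mom_h hn (h := fun y => y i * y j) (j := 2) (by fun_prop)
    (fun _ h => mul_nonneg (h i) (h j)) (fun _ _ _ => by simp; ring)
  rw [EX_coord2, Nat.factorial_succ, Nat.factorial_succ] at h1
  push_cast at h1
  have : (n.factorial : ℝ) ≠ 0 := by positivity
  rw [vol_T0 hn]
  split_ifs at h1 ⊢ <;> field_simp <;> linarith

theorem mom_int {f : (Fin n → ℝ) → ℝ} (hf : Continuous f) : Integrable f (volume.restrict (T0 n)) :=
  hf.continuousOn.integrableOn_compact isCompact_T0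

theorem mom_cen (hn : 1 ≤ n) (i : Fin n) : cen (T0 n) i = 1 / (n + 1) := by
  have := (mom_pos hn).ne'
  rw [cen, mom_1 hn]
  field_simp

theorem mom_c (hn : 1 ≤ n) (i j : Fin n) :
    ∫ x in T0 n, (x i - 1 / (n + 1)) * (x j - 1 / (n + 1)) =
      vol (T0 n) * (((if i = j then 1 else 0) + 1) / ((n + 1) * (n + 2)) - 1 / (n + 1) ^ 2) := by
  have h1 : ∀ x : Fin n → ℝ, (x i - 1 / (n + 1)) * (x j - 1 / (n + 1)) =
      x i * x j - 1 / (n + 1) * x i - 1 / (n + 1) * x j + (1 / (n + 1)) ^ 2 * 1 := fun x => by ring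
  simp_rw [h1]
  rw [integral_add (mom_int (by fun_prop)) (mom_int (by fun_prop)),
    integral_sub (mom_int (by fun_prop)) (mom_int (by fun_prop)),
    integral_sub (mom_int (by fun_prop)) (mom_int (by fun_prop)), integral_const_mul,
    integral_const_mul, integral_const_mul, ← vol_eq, mom_1 hn, mom_1 hn, mom_2 hn]
  field_simp
  ring

theorem mom_cov (hn : 1 ≤ n) (i j : Fin n) :
    cov (T0 n) i j = ((if i = j then 1 else 0) + 1) / ((n + 1) * (n + 2)) - 1 / (n + 1) ^ 2 := by
  have := (mom_pos hn).ne'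
  rw [cov, Matrix.of_apply, mom_cen hn, mom_cen hn, mom_c hn, ← mul_assoc, inv_mul_cancel₀ this,
    one_mul]

theorem Am_cov (hn : 1 ≤ n) : Am n * cov (T0 n) = 1 := by
  ext i j
  have h1 : ∀ k, Am n i k * cov (T0 n) k j = (if i = k then (if k = j then 1 else 0) - 1 / ((n : ℝ) + 1) else 0)
      + (if k = j then 1 else 0) - 1 / ((n : ℝ) + 1) := fun k => by
    rw [mom_cov hn, Am, Matrix.of_apply]
    split_ifs <;> field_simp <;> ring
  rw [Matrix.mul_apply]
  simp_rw [h1]
  rw [Finset.sum_sub_distrib, Finset.sum_add_distrib, Finset.sum_ite_eq, Finset.sum_ite_eq',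
    Matrix.one_apply]
  simp only [Finset.mem_univ, if_true, Finset.sum_const, Finset.card_univ, Fintype.card_fin,
    nsmul_eq_mul]
  field_simp
  ring

theorem Qx_eq (x : Fin n → ℝ) :
    Qx x = ∑ i, ∑ j, Am n i j * ((x i - 1 / (n + 1)) * (x j - 1 / (n + 1))) := by
  have h1 : ∀ i j, Am n i j * ((x i - 1 / (n + 1)) * (x j - 1 / (n + 1))) =
      (n + 1) * (n + 2) * ((if i = j then (x i - 1 / (n + 1)) ^ 2 else 0) +
        (x i - 1 / (n + 1)) * (x j - 1 / (n + 1))) := fun i j => by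
    rw [Am, Matrix.of_apply]
    split_ifs with h
    · subst h; ring
    · ring
  have h2 : 1 - sm x - 1 / (n + 1) = -∑ i, (x i - 1 / (n + 1)) := by
    rw [Finset.sum_sub_distrib, sm]
    simp only [Finset.sum_const, Finset.card_univ, Fintype.card_fin, nsmul_eq_mul]
    field_simp
    ring
  simp_rw [h1, ← Finset.mul_sum, Finset.sum_add_distrib, Finset.sum_ite_eq]
  rw [Qx, Fin.sum_univ_succ, bc_zero, h2, neg_sq, sq, Finset.sum_mul_sum]
  simp only [bc_succ, Finset.mem_univ, if_true, add_comm]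

theorem int_Qx (hn : 1 ≤ n) : ∫ x in T0 n, Qx x = n * vol (T0 n) := by
  simp_rw [Qx_eq]
  rw [integral_finsetSum _ fun i _ => mom_int (by fun_prop)]
  have h1 : ∀ i : Fin n, ∫ x in T0 n, ∑ j, Am n i j * ((x i - 1 / (n + 1)) * (x j - 1 / (n + 1))) =
      vol (T0 n) := fun i => by
    rw [integral_finsetSum _ fun i _ => mom_int (by fun_prop)]
    have h2 := congrFun (congrFun (Am_cov hn) i) i
    rw [Matrix.mul_apply, Matrix.one_apply_eq] at h2
    refine (Finset.sum_congr rfl fun j _ => ?_).trans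
      ((Finset.mul_sum _ _ _).symm.trans ((congrArg (vol (T0 n) * ·) h2).trans (mul_one _)))
    rw [integral_const_mul, mom_c hn, mom_cov hn, if_congr (eq_comm (a := j)) rfl rfl]
    ring
  simp_rw [h1]
  simp

end Vale.Agent.P254
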