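import Vale.Agent.P254.Basic

/-!
P254 One (TASK, helper names start with one_): two inequalities for convex functions on a half line.
γ is continuous (ConvexOn.continuousOn / locallyLipschitz on univ), everything is integrable by the growth bound
(Real.GammaIntegral_convergent, or integrableOn_rpow_mul_exp_neg_mul_rpow; moments ∫ t^k e^(-t) = k! from Real.Gamma_eq_integral,
Real.Gamma_nat_eq_factorial, or integral_Ioi_of_hasDerivAt_of_tendsto with explicit antiderivatives polynomial * exp (-t)).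
one_A: pl has the roots r1 = 2 - √2 < r2 = 2 + √2.  Let l be the affine function with l = γ at r1, r2.  Then (γ - l) * pl ≥ 0
pointwise (ConvexOn.slope_mono_adjacent, secant lemmas) and ∫ pl e^(-t) = 0 = ∫ t pl e^(-t).
one_B: q = pl - 1 = t^2 - 4 t + 1 has the roots s1 = 2 - √3 < 1 < s2 = 2 + √3.  Let l t = γ 1 + a * max (t - 1) 0 + b * max (1 - t) 0 with
a = (γ s2 - γ 1) / (s2 - 1), b = (γ s1 - γ 1) / (1 - s1).  Then (γ - l) * q ≥ 0 on [0, ∞); ∫ q e^(-t) = -1; ∫ over (1, ∞) of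
q (t - 1) e^(-t) is 0 (antiderivative -(t^3 - 2 t^2 + t) e^(-t)) and also over (0, 1).  So ∫ γ q e^(-t) ≥ -γ 1.
Finally ∫ γ wk e^(-t) ≥ γ 1: take a supporting line γ t ≥ γ 1 + σ (t - 1) (σ = sSup of the slopes from a < 1 to 1), wk ≥ 0,
∫ wk e^(-t) = ∫ over (1/2, ∞) of 2 e^(1 - 2 t) = 1 and ∫ (t - 1) wk e^(-t) = 0.
-/

open MeasureTheory Set Matrix

noncomputable section

namespace Vale.Agent.P254

variable {n : ℕ}

theorem one_mom (k : ℕ) : IntegrableOn (fun t : ℝ => t ^ k * Real.exp (-t)) (Ioi 0) := by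
  have h := Real.GammaIntegral_convergent (s := k + 1) (by positivity)
  simpa [mul_comm] using h

theorem one_cub (a b c d : ℝ) : IntegrableOn
    (fun t : ℝ => (a + b * t + c * t ^ 2 + d * t ^ 3) * Real.exp (-t)) (Ioi 0) := by
  have h := ((((one_mom 0).const_mul a).add ((one_mom 1).const_mul b)).add
    ((one_mom 2).const_mul c)).add ((one_mom 3).const_mul d)
  refine h.congr (ae_of_all _ fun t => ?_)
  simp only [Pi.add_apply]
  ring

theorem one_ftc {F f : ℝ → ℝ} {a : ℝ} (ha : 0 ≤ a) (h : ∀ t, HasDerivAt F (f t) t)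
    (hF : IntegrableOn F (Ioi 0)) (hf : IntegrableOn f (Ioi 0)) : ∫ t in Ioi a, f t = -F a := by
  have h1 := hF.mono_set (Ioi_subset_Ioi ha)
  have h2 := hf.mono_set (Ioi_subset_Ioi ha)
  rw [integral_Ioi_of_hasDerivAt_of_tendsto (h a).continuousAt.continuousWithinAt
    (fun t _ => h t) h2 (tendsto_zero_of_hasDerivAt_of_integrableOn_Ioi (fun t _ => h t) h2 h1),
    zero_sub]

theorem one_der (a b c d t : ℝ) : HasDerivAt (fun t : ℝ => a + b * t + c * t ^ 2 + d * t ^ 3)
    (b + 2 * c * t + 3 * d * t ^ 2) t := by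
  have h := ((((hasDerivAt_id t).const_mul b).const_add a).add
    ((hasDerivAt_pow 2 t).const_mul c)).add ((hasDerivAt_pow 3 t).const_mul d)
  refine HasDerivAt.congr_deriv h ?_
  simp only [Nat.cast_ofNat, Nat.add_one_sub_one, pow_one]
  ring

theorem one_val (a b c d : ℝ) {x : ℝ} (hx : 0 ≤ x) :
    ∫ t in Ioi x, (a + b * t + c * t ^ 2 + d * t ^ 3) * Real.exp (-t) =
      ((a + b + 2 * c + 6 * d) + (b + 2 * c + 6 * d) * x + (c + 3 * d) * x ^ 2 + d * x ^ 3) *
        Real.exp (-x) := by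
  rw [one_ftc hx (F := fun t => (-(a + b + 2 * c + 6 * d) + -(b + 2 * c + 6 * d) * t +
    -(c + 3 * d) * t ^ 2 + -d * t ^ 3) * Real.exp (-t)) (fun t => ?_) (one_cub _ _ _ _)
    (one_cub _ _ _ _)]
  · ring
  · refine HasDerivAt.congr_deriv ((one_der _ _ _ _ t).mul (hasDerivAt_neg t).exp) ?_
    ring

theorem one_gi {γ q : ℝ → ℝ} {B : ℝ} (hc : ConvexOn ℝ univ γ)
    (hb : ∀ t, 0 ≤ t → |γ t| ≤ B * (1 + t)) (hq : Measurable q)
    (hq' : ∀ t, 0 ≤ t → |q t| ≤ 6 + 4 * t + t ^ 2) :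
    IntegrableOn (fun t => γ t * q t * Real.exp (-t)) (Ioi 0) := by
  have h0 : Continuous γ := continuousOn_univ.1 (hc.continuousOn isOpen_univ)
  refine Integrable.mono' (one_cub (6 * B) (10 * B) (5 * B) B)
    (Measurable.aestronglyMeasurable (by fun_prop)) ?_
  filter_upwards [ae_restrict_mem measurableSet_Ioi] with t ht
  have ht' : 0 ≤ t := le_of_lt ht
  rw [Real.norm_eq_abs, abs_mul, abs_mul, Real.abs_exp]
  refine mul_le_mul_of_nonneg_right ?_ (Real.exp_pos _).le
  refine (mul_le_mul (hb t ht') (hq' t ht') (abs_nonneg _)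
    ((abs_nonneg _).trans (hb t ht'))).trans (le_of_eq ?_)
  ring

theorem one_sec {γ : ℝ → ℝ} (hc : ConvexOn ℝ univ γ) {r s : ℝ} (h : r < s) (t : ℝ) :
    0 ≤ (γ t - (γ r + (γ s - γ r) / (s - r) * (t - r))) * ((t - r) * (t - s)) := by
  have h0 : 0 < s - r := sub_pos.2 h
  have e : γ t - (γ r + (γ s - γ r) / (s - r) * (t - r)) =
      ((s - r) * γ t - (s - t) * γ r - (t - r) * γ s) / (s - r) := by
    field_simp
    ring
  rw [e, div_mul_eq_mul_div]
  refine div_nonneg ?_ h0.le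
  rcases lt_trichotomy t r with h1 | rfl | h1
  · have h2 := hc.secant_mono_aux1 (mem_univ t) (mem_univ s) h1 h
    exact mul_nonneg (by linarith) (mul_nonneg_of_nonpos_of_nonpos (by linarith) (by linarith))
  · simp
  rcases lt_trichotomy t s with h2 | rfl | h2
  · have h3 := hc.secant_mono_aux1 (mem_univ r) (mem_univ s) h1 h2
    exact mul_nonneg_of_nonpos_of_nonpos (by linarith)
      (mul_nonpos_of_nonneg_of_nonpos (by linarith) (by linarith))
  · simp
  · have h3 := hc.secant_mono_aux1 (mem_univ r) (mem_univ t) h h2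
    exact mul_nonneg (by linarith) (mul_nonneg (by linarith) (by linarith))

theorem one_sup {γ : ℝ → ℝ} (hc : ConvexOn ℝ univ γ) : ∃ σ : ℝ, ∀ t, γ 1 + σ * (t - 1) ≤ γ t := by
  obtain ⟨σ, h1, h2⟩ := exists_between_of_forall_le
    (s := (fun a => (γ 1 - γ a) / (1 - a)) '' Iio 1) (t := (fun b => (γ b - γ 1) / (b - 1)) '' Ioi 1)
    (nonempty_Iio.image _) (nonempty_Ioi.image _) (by
      rintro _ ⟨a, ha, rfl⟩ _ ⟨b, hb, rfl⟩
      exact hc.slope_mono_adjacent (mem_univ a) (mem_univ b) ha hb)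
  refine ⟨σ, fun t => ?_⟩
  rcases lt_trichotomy t 1 with h | rfl | h
  · have h3 : (γ 1 - γ t) / (1 - t) ≤ σ := h1 ⟨t, h, rfl⟩
    rw [div_le_iff₀ (by linarith)] at h3
    linarith
  · simp
  · have h3 : σ ≤ (γ t - γ 1) / (t - 1) := h2 ⟨t, h, rfl⟩
    rw [le_div_iff₀ (by linarith)] at h3
    linarith

theorem one_A {γ : ℝ → ℝ} {B : ℝ} (hc : ConvexOn ℝ univ γ) (hb : ∀ t, 0 ≤ t → |γ t| ≤ B * (1 + t)) :
    0 ≤ ∫ t in Ioi (0 : ℝ), γ t * pl t * Real.exp (-t) := by
  have h2 : √2 * √2 = 2 := Real.mul_self_sqrt (by norm_num)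
  have h3 : 0 < √2 := by positivity
  set m := (γ (2 + √2) - γ (2 - √2)) / (2 + √2 - (2 - √2)) with hm
  set a := γ (2 - √2) - m * (2 - √2) with ha
  have h4 := one_val (2 * a) (2 * m - 4 * a) (a - 4 * m) m le_rfl
  have h5 := one_gi (q := pl) hc hb (by unfold pl; fun_prop) fun t ht => by
    rw [pl, abs_le]
    constructor <;> nlinarith
  refine le_trans (le_of_eq ?_) (h4.ge.trans (integral_mono (one_cub _ _ _ _) h5 fun t => ?_))
  · ring
  · refine mul_le_mul_of_nonneg_right ?_ (Real.exp_pos _).le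
    have h6 := one_sec hc (by linarith : 2 - √2 < 2 + √2) t
    rw [← hm, show (t - (2 - √2)) * (t - (2 + √2)) = pl t by rw [pl]; linear_combination -h2,
      show γ (2 - √2) + m * (t - (2 - √2)) = a + m * t by rw [ha]; ring] at h6
    have h7 : 2 * a + (2 * m - 4 * a) * t + (a - 4 * m) * t ^ 2 + m * t ^ 3 = (a + m * t) * pl t := by
      rw [pl]; ring
    linarith

theorem one_q {γ : ℝ → ℝ} (hc : ConvexOn ℝ univ γ)
    (hi : IntegrableOn (fun t => γ t * (pl t - 1) * Real.exp (-t)) (Ioi 0)) :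
    -γ 1 ≤ ∫ t in Ioi (0 : ℝ), γ t * (pl t - 1) * Real.exp (-t) := by
  have h2 : √3 * √3 = 3 := Real.mul_self_sqrt (by norm_num)
  have h3 : 1 < √3 := by nlinarith [Real.sqrt_nonneg 3]
  set m := (γ 1 - γ (2 - √3)) / (1 - (2 - √3)) with hm
  set m' := (γ (2 + √3) - γ 1) / (2 + √3 - 1) with hm'
  set a := γ 1 - m with ha
  set c := m' - m with hc'
  have h4 := one_val a (m - 4 * a) (a - 4 * m) m le_rfl
  have h5 := one_val (-c) (5 * c) (-5 * c) c zero_le_one
  have h6 := (one_cub (-c) (5 * c) (-5 * c) c).indicator (measurableSet_Ioi (a := (1 : ℝ)))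
  have h7 := integral_add (one_cub a (m - 4 * a) (a - 4 * m) m) h6
  rw [setIntegral_indicator measurableSet_Ioi, Ioi_inter_Ioi, max_eq_right zero_le_one, h4,
    h5] at h7
  refine le_trans (le_of_eq ?_) (h7.ge.trans (integral_mono
    ((one_cub a (m - 4 * a) (a - 4 * m) m).add h6) hi fun t => ?_))
  · rw [neg_zero, Real.exp_zero, ha]
    ring
  have hq : pl t - 1 = (t - (2 - √3)) * (t - (2 + √3)) := by rw [pl]; linear_combination h2
  have he := Real.exp_pos (-t)
  rcases lt_trichotomy t 1 with h | rfl | h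
  · have h8 := one_sec hc (by linarith : 2 - √3 < 1) t
    have h9 : γ (2 - √3) + m * (t - (2 - √3)) = a + m * t := by
      have : m * (1 - (2 - √3)) = γ 1 - γ (2 - √3) := div_mul_cancel₀ _ (by linarith)
      rw [ha]
      linarith
    rw [← hm, h9, ← mul_assoc] at h8
    have h10 : (γ t - (a + m * t)) * (t - (2 - √3)) ≤ 0 :=
      nonpos_of_mul_nonneg_left h8 (by linarith)
    have h11 := mul_nonneg_of_nonpos_of_nonpos h10 (by linarith : t - (2 + √3) ≤ 0)
    rw [mul_assoc, ← hq] at h11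
    simp only [indicator_of_notMem (show t ∉ Ioi (1 : ℝ) from not_lt.2 h.le), add_zero]
    refine mul_le_mul_of_nonneg_right ?_ he.le
    have h12 : a + (m - 4 * a) * t + (a - 4 * m) * t ^ 2 + m * t ^ 3 =
        (a + m * t) * (pl t - 1) := by rw [pl]; ring
    linarith
  · simp only [indicator_of_notMem (show (1 : ℝ) ∉ Ioi (1 : ℝ) from self_notMem_Ioi), add_zero]
    refine mul_le_mul_of_nonneg_right (le_of_eq ?_) he.le
    rw [pl, ha]
    ring
  · have h8 := one_sec hc (by linarith : 1 < 2 + √3) t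
    rw [← hm', mul_left_comm] at h8
    have h10 : 0 ≤ (γ t - (γ 1 + m' * (t - 1))) * (t - (2 + √3)) :=
      nonneg_of_mul_nonneg_right h8 (by linarith)
    have h11 := mul_nonneg h10 (by linarith : 0 ≤ t - (2 - √3))
    rw [mul_assoc, mul_comm (t - (2 + √3)), ← hq] at h11
    simp only [indicator_of_mem (show t ∈ Ioi (1 : ℝ) from h), ← add_mul]
    refine mul_le_mul_of_nonneg_right ?_ he.le
    have h12 : a + (m - 4 * a) * t + (a - 4 * m) * t ^ 2 + m * t ^ 3 +
        (-c + 5 * c * t + -5 * c * t ^ 2 + c * t ^ 3) = (γ 1 + m' * (t - 1)) * (pl t - 1) := by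
      rw [pl, ha, hc']; ring
    linarith

theorem one_lin (a b : ℝ) : IntegrableOn
    (fun t : ℝ => Real.exp (1 - t) * ((a + b * t) * Real.exp (-t))) (Ioi 0) := by
  have h := one_cub a b 0 0
  simp only [zero_mul, add_zero] at h
  refine Integrable.bdd_mul (c := Real.exp 1) h (Continuous.aestronglyMeasurable (by fun_prop)) ?_
  filter_upwards [ae_restrict_mem measurableSet_Ioi] with t ht
  rw [Real.norm_eq_abs, Real.abs_exp]
  exact Real.exp_le_exp.2 (by linarith [mem_Ioi.1 ht])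

theorem one_w {γ : ℝ → ℝ} (hc : ConvexOn ℝ univ γ)
    (hi : IntegrableOn (fun t => γ t * wk t * Real.exp (-t)) (Ioi 0)) :
    γ 1 ≤ ∫ t in Ioi (0 : ℝ), γ t * wk t * Real.exp (-t) := by
  obtain ⟨σ, hσ⟩ := one_sup hc
  have h1 := one_ftc (a := 1 / 2) (by norm_num)
    (F := fun t => Real.exp (1 - t) * ((σ / 2 - γ 1 + -σ * t) * Real.exp (-t)))
    (f := fun t => Real.exp (1 - t) * ((2 * (γ 1 - σ) + 2 * σ * t) * Real.exp (-t)))
    (fun t => HasDerivAt.congr_deriv (((hasDerivAt_id t).const_sub 1).exp.mul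
      ((((hasDerivAt_id t).const_mul (-σ)).const_add (σ / 2 - γ 1)).mul (hasDerivAt_neg t).exp))
      (by simp only [id]; ring)) (one_lin _ _) (one_lin _ _)
  have h2 := (one_lin (2 * (γ 1 - σ)) (2 * σ)).indicator (measurableSet_Ici (a := (1 / 2 : ℝ)))
  have h3 : Ioi (0 : ℝ) ∩ Ici (1 / 2) = Ici (1 / 2) :=
    inter_eq_right.2 fun t ht => lt_of_lt_of_le (by norm_num : (0 : ℝ) < 1 / 2) ht
  have h4 := integral_mono h2 hi fun t => by
    by_cases ht : 1 / 2 ≤ t
    · simp only [indicator_of_mem (show t ∈ Ici (1 / 2 : ℝ) from ht), wk, if_pos ht]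
      have h5 := mul_le_mul_of_nonneg_right (hσ t)
        (by positivity : 0 ≤ 2 * Real.exp (1 - t) * Real.exp (-t))
      linarith
    · simp only [indicator_of_notMem (show t ∉ Ici (1 / 2 : ℝ) from ht), wk, if_neg ht]
      simp
  rw [setIntegral_indicator measurableSet_Ici, h3, integral_Ici_eq_integral_Ioi, h1] at h4
  refine le_trans (le_of_eq ?_) h4
  have h6 : Real.exp (1 - 1 / 2) * Real.exp (-(1 / 2)) = 1 := by
    rw [← Real.exp_add]; norm_num
  linear_combination -γ 1 * h6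

theorem one_B {γ : ℝ → ℝ} {B : ℝ} (hc : ConvexOn ℝ univ γ) (hb : ∀ t, 0 ≤ t → |γ t| ≤ B * (1 + t)) :
    0 ≤ ∫ t in Ioi (0 : ℝ), γ t * (pl t - 1 + wk t) * Real.exp (-t) := by
  have h1 := one_gi (q := fun t => pl t - 1) hc hb (by unfold pl; fun_prop) fun t ht => by
    rw [pl, abs_le]
    constructor <;> nlinarith
  have h2 := one_gi (q := wk) hc hb
    (Measurable.ite measurableSet_Ici (by fun_prop) measurable_const) fun t ht => by
      have h3 : Real.exp (1 - t) ≤ 3 :=
        (Real.exp_le_exp.2 (by linarith)).trans (Real.exp_one_lt_d9.le.trans (by norm_num))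
      have h4 := Real.exp_pos (1 - t)
      rw [wk, abs_le]
      split_ifs <;> constructor <;> nlinarith
  have h3 := integral_add h1 h2
  have h4 := one_q hc h1
  have h5 := one_w hc h2
  simp only [← add_mul, ← mul_add] at h3
  linarith

end Vale.Agent.P254
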