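import Vale.Agent.P254.Basic

/-!
P254 SelA (TASK, helper names start with sela_): a simplex of minimal volume around K.
adm_nonneg: the vertex vt l = fun i => if i.succ = l then 1 else 0 lies in T0 and bc (vt l) = Pi.single l 1.
exists_max: {A | Adm K A} is closed with entries in [0, 1] (adm_nonneg and the column sums), so compact
(isCompact_Icc.of_isClosed_subset in Fin (n+1) → Fin (n+1) → ℝ, or isCompact_univ_pi), IsCompact.exists_isMaxOn, Continuous.matrix_det.
The competitor A0 = (1 + (n+1) η)⁻¹ • (1 + of fun _ _ => η) is admissible ((A0 *ᵥ bc x) i = (bc x i + η) / (1 + (n+1) η), sum_bc) and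
det A0 = (1 + (n+1) η)⁻¹ ^ n (det_smul, det_one_add_replicateCol_mul_replicateRow).
big_entry: |det A| ≤ ∑ over permutations σ of ∏ l, A (σ l) l ≤ ∑ over functions f with j ∈ range f of ∏ l, A (f l) l
= 1 - ∏ l, (1 - A j l) (det_apply', Finset.prod_univ_sum, Fintype.piFinset with univ and with univ.erase j).  If all A j l < 1 - θ then
∏ l, (1 - A j l) ≥ θ^(n+1).
-/

open MeasureTheory Set Matrix

noncomputable section

namespace Vale.Agent.P254

variable {n : ℕ}

theorem sela_col (A : Matrix (Fin (n + 1)) (Fin (n + 1)) ℝ) (l : Fin (n + 1)) :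
    ∃ x ∈ T0 n, A *ᵥ bc x = fun i => A i l := by
  have h : bc (Fin.tail (Pi.single l 1 : Fin (n + 1) → ℝ)) = Pi.single l 1 := bc_tail (by simp)
  refine ⟨_, fun j => ?_, by rw [h, mulVec_single_one]; rfl⟩
  rw [h, Pi.single_apply]
  split_ifs <;> norm_num

theorem adm_nonneg {K : Set (Fin n → ℝ)} {A : Matrix (Fin (n + 1)) (Fin (n + 1)) ℝ} (hT : T0 n ⊆ K)
    (hA : Adm K A) (i l : Fin (n + 1)) : 0 ≤ A i l := by
  obtain ⟨x, hx, h⟩ := sela_col A l
  have h1 := hA.1 x (hT hx) i
  rwa [h] at h1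

theorem adm_col (A : Matrix (Fin (n + 1)) (Fin (n + 1)) ℝ) (l : Fin (n + 1)) :
    ∃ x ∈ T0 n, A *ᵥ bc x = fun i => A i l := sela_col A l

theorem sela_cpt {K : Set (Fin n → ℝ)} (hT : T0 n ⊆ K) : IsCompact {A | Adm K A} := by
  have h1 : IsClosed {A | Adm K A} := by
    simp only [Adm, ofPred_and, ofPred_forall]
    refine IsClosed.inter (isClosed_iInter fun x => isClosed_iInter fun _ =>
      isClosed_iInter fun i => isClosed_le continuous_const ?_)
      (isClosed_iInter fun l => isClosed_eq ?_ continuous_const)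
    · exact (continuous_apply i).comp (continuous_id.matrix_mulVec continuous_const)
    · exact continuous_finsetSum _ fun i _ => continuous_id.matrix_elem i l
  have h2 : IsCompact (univ.pi fun _ : Fin (n + 1) => univ.pi fun _ : Fin (n + 1) =>
      Icc (0 : ℝ) 1) := isCompact_univ_pi fun _ => isCompact_univ_pi fun _ => isCompact_Icc
  refine IsCompact.of_isClosed_subset (X := Matrix (Fin (n + 1)) (Fin (n + 1)) ℝ) h2 h1
    fun A hA i _ l _ => ⟨adm_nonneg hT hA i l, ?_⟩
  rw [← hA.2 l]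
  exact Finset.single_le_sum (fun j _ => adm_nonneg hT hA j l) (Finset.mem_univ i)

theorem exists_max {K : Set (Fin n → ℝ)} {η : ℝ} (hη : 0 ≤ η) (hT : T0 n ⊆ K)
    (hK : ∀ x ∈ K, ∀ j, -η ≤ bc x j) : ∃ A, Adm K A ∧ (∀ A', Adm K A' → A'.det ≤ A.det) ∧
      (1 + (n + 1) * η)⁻¹ ^ n ≤ A.det := by
  have hc : (0 : ℝ) < 1 + (n + 1) * η := by positivity
  have h0 : Adm K ((1 + (n + 1) * η)⁻¹ • (1 + replicateCol Unit (fun _ : Fin (n + 1) => η) *
      replicateRow Unit fun _ : Fin (n + 1) => (1 : ℝ))) := by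
    refine ⟨fun x hx i => ?_, fun l => ?_⟩
    · rw [smul_mulVec, add_mulVec, one_mulVec, Pi.smul_apply, Pi.add_apply, smul_eq_mul]
      refine mul_nonneg (inv_pos.2 hc).le ?_
      have e : ((replicateCol Unit (fun _ : Fin (n + 1) => η) *
          replicateRow Unit fun _ : Fin (n + 1) => (1 : ℝ)) *ᵥ bc x) i = η := by
        simp only [mulVec, dotProduct, mul_apply, replicateCol_apply, replicateRow_apply,
          Finset.univ_unique, Finset.sum_singleton, mul_one, ← Finset.mul_sum, sum_bc]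
      rw [e]
      linarith [hK x hx i]
    · simp only [Matrix.smul_apply, Matrix.add_apply, mul_apply,
        replicateCol_apply, replicateRow_apply,
        mul_one, smul_eq_mul, ← Finset.mul_sum, Fintype.card_unique, Nat.cast_one, one_mul,
        Finset.sum_add_distrib, one_apply, Finset.sum_ite_eq', Finset.mem_univ, if_true,
        Finset.sum_const, Finset.card_univ, Fintype.card_fin, nsmul_eq_mul]
      push_cast
      exact inv_mul_cancel₀ hc.ne'
  obtain ⟨A, hA, hm⟩ := (sela_cpt hT).exists_isMaxOn ⟨_, h0⟩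
    (continuous_id.matrix_det (R := ℝ)).continuousOn
  refine ⟨A, hA, fun A' h' => hm h', le_trans (le_of_eq ?_) (hm h0)⟩
  simp only [id]
  rw [det_smul, det_one_add_replicateCol_mul_replicateRow, Fintype.card_fin, pow_succ]
  simp only [dotProduct, one_mul, Finset.sum_const, Finset.card_univ, Fintype.card_fin,
    nsmul_eq_mul]
  push_cast
  rw [mul_assoc, inv_mul_cancel₀ hc.ne', mul_one]

theorem big_entry {A : Matrix (Fin (n + 1)) (Fin (n + 1)) ℝ} (h0 : ∀ i l, 0 ≤ A i l)
    (h1 : ∀ l, ∑ i, A i l = 1) {θ : ℝ} (hθ : 0 ≤ θ) (hd : 1 - θ ^ (n + 1) < A.det) (j : Fin (n + 1)) :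
    ∃ l, 1 - θ ≤ A j l := by
  by_contra hc
  simp only [not_exists, not_le] at hc
  have p0 : ∀ f : Fin (n + 1) → Fin (n + 1), 0 ≤ ∏ l, A (f l) l := fun f =>
    Finset.prod_nonneg fun l _ => h0 _ l
  have a1 : A.det ≤ ∑ σ : Equiv.Perm (Fin (n + 1)), ∏ l, A (σ l) l := by
    rw [det_apply']
    refine Finset.sum_le_sum fun σ _ => mul_le_of_le_one_left (p0 σ) ?_
    rcases Int.units_eq_one_or (Equiv.Perm.sign σ) with h | h <;> simp [h]
  have a2 : ∑ σ : Equiv.Perm (Fin (n + 1)), ∏ l, A (σ l) l ≤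
      ∑ f ∈ Fintype.piFinset (fun _ : Fin (n + 1) => (Finset.univ : Finset (Fin (n + 1)))) \
        Fintype.piFinset fun _ : Fin (n + 1) => Finset.univ.erase j, ∏ l, A (f l) l := by
    rw [← Finset.sum_image (g := fun σ : Equiv.Perm (Fin (n + 1)) => (σ : Fin (n + 1) → _))
      (f := fun f => ∏ l, A (f l) l) fun _ _ _ _ h => DFunLike.coe_injective h]
    refine Finset.sum_le_sum_of_subset_of_nonneg (fun f hf => ?_) fun f _ _ => p0 f
    obtain ⟨σ, -, rfl⟩ := Finset.mem_image.1 hf
    refine Finset.mem_sdiff.2 ⟨by simp, fun h => ?_⟩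
    simpa using Fintype.mem_piFinset.1 h (σ.symm j)
  have a3 := Finset.sum_sdiff (f := fun f : Fin (n + 1) → Fin (n + 1) => ∏ l, A (f l) l)
    (Fintype.piFinset_subset (fun _ : Fin (n + 1) => Finset.univ.erase j) (fun _ => Finset.univ)
      fun _ => Finset.subset_univ _)
  rw [← Finset.prod_univ_sum (fun _ => Finset.univ.erase j) fun l i => A i l,
    ← Finset.prod_univ_sum (fun _ => Finset.univ) fun l i => A i l] at a3
  simp only [h1, Finset.prod_const_one] at a3
  have a4 : θ ^ (n + 1) ≤ ∏ l, ∑ i ∈ Finset.univ.erase j, A i l := by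
    rw [← Fin.prod_const]
    refine Finset.prod_le_prod (fun _ _ => hθ) fun l _ => ?_
    rw [Finset.sum_erase_eq_sub (Finset.mem_univ j), h1]
    linarith [hc l]
  linarith

end Vale.Agent.P254
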