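import Vale.Agent.P254.SelA

/-!
P254 SelB (TASK, helper names start with selb_): separation, touching at the centroids of the facets, and the inner simplex.
sep: W = (fun x => A *ᵥ bc x) '' K is compact and convex (bc_comb), geometric_hahn_banach_point_closed gives f, c with f z < c < f w on W;
b j = f (Pi.single j 1) - c; all points have coordinate sum 1 (sum_bc and the column sums).
touch: otherwise sep gives b with ∑ j ≠ k, b j < 0.  P t has the rows (1 - t b i) e i for i ≠ k and (1 - t b k) e k + t b for i = k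
(P t = updateRow (diagonal fun i => 1 - t * b i) k ..); P t * A is admissible for small t > 0, det (P t) = ∏ i ≠ k, (1 - t b i)
(det_updateRow_add, det_updateRow_smul, det_updateRow_sum: write the row as a combination of the rows of
diagonal (fun i => if i = k then 1 else 1 - t b i), or det_eq_of_forall_row_eq_smul_add_const) and this is > 1 for small t > 0
(derivative at 0 is - ∑ j ≠ k, b j > 0: HasDerivAt.finset_prod, or Weierstrass type estimate).
inner: otherwise sep gives b; β = max |b j| > 0.  For each j the column w = A · l with w j ≥ 1 - θ (adm_col) gives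
0 ≤ b ⬝ᵥ w ≤ b j + 2 θ β, so b j ≥ -2 θ β; hence β = b j0 for some j0 (θ < 1/2) and b ⬝ᵥ z ≥ ε β - 2 θ β ≥ 0.
-/

open MeasureTheory Set Matrix

noncomputable section

namespace Vale.Agent.P254

variable {n : ℕ}

theorem selb_sum {A : Matrix (Fin (n + 1)) (Fin (n + 1)) ℝ} (h1 : ∀ l, ∑ i, A i l = 1)
    (x : Fin n → ℝ) : ∑ j, (A *ᵥ bc x) j = 1 := by
  simp only [mulVec, dotProduct]
  rw [Finset.sum_comm]
  simp only [← Finset.sum_mul, h1, one_mul, sum_bc]

theorem sep {K : Set (Fin n → ℝ)} (hc : IsCompact K) (hv : Convex ℝ K)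
    {A : Matrix (Fin (n + 1)) (Fin (n + 1)) ℝ} (h1 : ∀ l, ∑ i, A i l = 1) {z : Fin (n + 1) → ℝ}
    (hz : ∑ j, z j = 1) (hn : ∀ x ∈ K, A *ᵥ bc x ≠ z) :
    ∃ b : Fin (n + 1) → ℝ, b ⬝ᵥ z < 0 ∧ ∀ x ∈ K, 0 ≤ b ⬝ᵥ (A *ᵥ bc x) := by
  have hW : IsCompact ((fun x => A *ᵥ bc x) '' K) :=
    hc.image (continuous_const.matrix_mulVec (continuous_pi continuous_bc))
  have hWc : Convex ℝ ((fun x => A *ᵥ bc x) '' K) := by
    rintro _ ⟨x, hx, rfl⟩ _ ⟨y, hy, rfl⟩ a b ha hb hab
    refine ⟨a • x + b • y, hv hx hy ha hb hab, ?_⟩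
    have e : bc (a • x + b • y) = a • bc x + b • bc y := funext fun j => bc_comb x y hab j
    simp only [e, mulVec_add, mulVec_smul]
  obtain ⟨f, c, hf1, hf2⟩ := geometric_hahn_banach_point_closed hWc hW.isClosed
    (x := z) (by rintro ⟨x, hx, e⟩; exact hn x hx e)
  have key : ∀ w : Fin (n + 1) → ℝ, ∑ j, w j = 1 →
      (fun j => f (Pi.single j 1) - c) ⬝ᵥ w = f w - c := by
    intro w hw
    have e : f w = ∑ j, w j * f (Pi.single j 1) := by
      conv_lhs => rw [pi_eq_sum_univ' w]
      simp [map_sum]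
    rw [e]
    simp only [dotProduct, sub_mul, Finset.sum_sub_distrib, ← Finset.mul_sum, hw, mul_one]
    simp only [mul_comm]
  refine ⟨fun j => f (Pi.single j 1) - c, by rw [key z hz]; linarith, fun x hx => ?_⟩
  rw [key _ (selb_sum h1 x)]
  linarith [hf2 _ ⟨x, hx, rfl⟩]

theorem selb_fc (hn : 1 ≤ n) (k j : Fin (n + 1)) :
    bc (fc k) j = if j = k then 0 else 1 / (n : ℝ) := by
  have hn0 : (n : ℝ) ≠ 0 := by positivity
  refine Fin.cases ?_ (fun i => rfl) j
  rw [bc_zero, sm]
  refine Fin.cases ?_ (fun i => ?_) k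
  · simp [fc, hn0]
  · have e : ∀ l : Fin n, fc i.succ l = 1 / n - if l = i then 1 / (n : ℝ) else 0 := by
      intro l
      by_cases h : l = i <;> simp [fc, h]
    simp [e, Finset.sum_sub_distrib, hn0, (Fin.succ_ne_zero i).symm]

theorem selb_t {m : ℕ} (b : Fin m → ℝ) (b' : Fin m → ℝ) (hb : ∑ j, b' j < 0) :
    ∃ t : ℝ, 0 < t ∧ (∀ i, 0 < 1 - t * b i) ∧ 1 < ∏ i, (1 - t * b' i) := by
  have hd : HasDerivAt (fun t : ℝ => ∏ i, (1 - t * b' i)) (-∑ j, b' j) 0 := by
    have := HasDerivAt.fun_finsetProd (u := Finset.univ) (x := (0 : ℝ))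
      (f := fun i t => 1 - t * b' i) (f' := fun i => -b' i)
      fun i _ => by simpa using ((hasDerivAt_id (0 : ℝ)).mul_const (b' i)).const_sub 1
    simpa using this
  have h1 := (hasDerivAt_iff_tendsto_slope_zero.1 hd).eventually
    (lt_mem_nhds (show 0 < -∑ j, b' j by linarith))
  have h2 : ∀ᶠ t : ℝ in nhdsWithin 0 (Ioi 0), ∀ i, 0 < 1 - t * b i := by
    refine Filter.eventually_all.2 fun i => nhdsWithin_le_nhds ?_
    have hc : Continuous fun t : ℝ => 1 - t * b i := by fun_prop
    exact hc.continuousAt.eventually (lt_mem_nhds (by simp))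
  obtain ⟨t, ⟨ht1, ht2⟩, ht⟩ := ((h2.and (nhdsGT_le_nhdsNE (0 : ℝ) h1)).and
    self_mem_nhdsWithin).exists
  refine ⟨t, ht, ht1, ?_⟩
  have ht0 : 0 < t⁻¹ := inv_pos.2 ht
  simp only [zero_add, zero_mul, sub_zero, Finset.prod_const_one, smul_eq_mul] at ht2
  linarith [(mul_pos_iff_of_pos_left ht0).1 ht2]

theorem touch (hn : 1 ≤ n) {K : Set (Fin n → ℝ)} (hc : IsCompact K) (hv : Convex ℝ K)
    {A : Matrix (Fin (n + 1)) (Fin (n + 1)) ℝ} (hA : Adm K A) (hm : ∀ A', Adm K A' → A'.det ≤ A.det)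
    (hd : 0 < A.det) (k : Fin (n + 1)) : ∃ x ∈ K, A *ᵥ bc x = bc (fc k) := by
  by_contra hcon
  push Not at hcon
  obtain ⟨b, hb1, hb2⟩ := sep hc hv hA.2 (sum_bc (fc k)) hcon
  have hn0 : (0 : ℝ) < n := by exact_mod_cast hn
  have hs : ∑ j, (if j = k then 0 else b j) < 0 := by
    have e : b ⬝ᵥ bc (fc k) = (∑ j, if j = k then 0 else b j) * (1 / n) := by
      rw [dotProduct, Finset.sum_mul]
      refine Finset.sum_congr rfl fun j _ => ?_
      rw [selb_fc hn]
      split_ifs <;> simp
    rw [e] at hb1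
    by_contra h
    exact absurd hb1 (not_lt.2 (mul_nonneg (not_lt.1 h) (by positivity)))
  obtain ⟨t, ht, h1, h2⟩ := selb_t b _ hs
  set P : Matrix (Fin (n + 1)) (Fin (n + 1)) ℝ :=
    diagonal (fun i => 1 - t * b i) + Matrix.of fun i l => if i = k then t * b l else 0 with hP
  have hdet : P.det = ∏ i, (1 - t * if i = k then 0 else b i) := by
    have e : P = (diagonal fun i => 1 - t * if i = k then 0 else b i).updateRow k
        (∑ l, (if l = k then 1 else t * b l / (1 - t * b l)) •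
          (diagonal fun i => 1 - t * if i = k then 0 else b i) l) := by
      ext i l
      by_cases hi : i = k
      · subst hi
        rw [updateRow_self, Finset.sum_apply, Finset.sum_eq_single l
          (fun c _ hc => by rw [Pi.smul_apply, diagonal_apply_ne _ hc, smul_zero]) (by simp),
          Pi.smul_apply, diagonal_apply_eq]
        by_cases hl : l = i
        · subst hl
          simp [hP]
        · have := (h1 l).ne'
          simp [hP, hl, Ne.symm hl, this]
      · simp [hP, diagonal_apply, hi]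
    rw [e, det_updateRow_sum, det_diagonal]
    simp
  have hadm : Adm K (P * A) := by
    refine ⟨fun x hx i => ?_, fun l => ?_⟩
    · rw [← mulVec_mulVec, hP, add_mulVec, Pi.add_apply, mulVec_diagonal]
      refine add_nonneg (mul_nonneg (h1 i).le (hA.1 x hx i)) ?_
      by_cases hi : i = k
      · have := mul_nonneg ht.le (hb2 x hx)
        rw [dotProduct, Finset.mul_sum] at this
        simpa [mulVec, dotProduct, hi, mul_assoc] using this
      · simp [mulVec, dotProduct, hi]
    · simp only [mul_apply]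
      rw [Finset.sum_comm]
      have e : ∀ j, ∑ i, P i j = 1 := by
        intro j
        simp [hP, Finset.sum_add_distrib, diagonal_apply]
      simp only [← Finset.sum_mul, e, one_mul, hA.2 l]
  have := hm _ hadm
  rw [det_mul, hdet] at this
  nlinarith

theorem inner_mem {K : Set (Fin n → ℝ)} (hc : IsCompact K) (hv : Convex ℝ K) (hT : T0 n ⊆ K)
    {A : Matrix (Fin (n + 1)) (Fin (n + 1)) ℝ} (hA : Adm K A) {θ ε : ℝ} (h0 : 0 ≤ θ) (h1 : θ < 1 / 2)
    (h2 : 2 * θ ≤ ε) (hb : ∀ j, ∃ l, 1 - θ ≤ A j l) {y : Fin n → ℝ} (hy : ∀ j, ε ≤ bc y j) :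
    ∃ x ∈ K, A *ᵥ bc x = bc y := by
  by_contra hcon
  push Not at hcon
  obtain ⟨b, hb1, hb2⟩ := sep hc hv hA.2 (sum_bc y) hcon
  obtain ⟨j0, -, hj0⟩ := Finset.exists_max_image Finset.univ (fun j => |b j|) Finset.univ_nonempty
  set β := |b j0| with hβ
  have hβ0 : 0 ≤ β := abs_nonneg _
  have hle : ∀ j, b j ≤ β := fun j => (le_abs_self _).trans (hj0 j (Finset.mem_univ j))
  have hlo : ∀ j, -(2 * θ * β) ≤ b j := by
    intro j
    obtain ⟨l, hl⟩ := hb j
    obtain ⟨x, hx, e⟩ := adm_col A l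
    have h3 := hb2 x (hT hx)
    rw [e] at h3
    have h4 : b ⬝ᵥ (fun i => A i l) ≤ ∑ i, (β * A i l + if i = j then (b j - β) * A j l else 0) := by
      refine Finset.sum_le_sum fun i _ => ?_
      have := mul_le_mul_of_nonneg_right (hle i) (adm_nonneg hT hA i l)
      split_ifs with h
      · rw [h]; linarith
      · linarith
    rw [Finset.sum_add_distrib, ← Finset.mul_sum, hA.2 l, Finset.sum_ite_eq' Finset.univ j,
      if_pos (Finset.mem_univ j)] at h4
    have h5 := mul_le_mul_of_nonpos_left hl (sub_nonpos.2 (hle j))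
    have h6 : -β ≤ b j := (neg_le_neg (hj0 j (Finset.mem_univ j))).trans (neg_abs_le _)
    nlinarith
  have hj : b j0 = β := by
    rcases abs_cases (b j0) with h | h
    · exact h.1.symm
    · have := hlo j0
      nlinarith
  have h4 : ∑ i, (-(2 * θ * β) * bc y i + if i = j0 then (β + 2 * θ * β) * bc y j0 else 0) ≤
      b ⬝ᵥ bc y := by
    refine Finset.sum_le_sum fun i _ => ?_
    have := mul_le_mul_of_nonneg_right (hlo i) ((by linarith : 0 ≤ ε).trans (hy i))
    split_ifs with h
    · rw [h, hj]; linarith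
    · linarith
  rw [Finset.sum_add_distrib, ← Finset.mul_sum, sum_bc, Finset.sum_ite_eq' Finset.univ j0,
    if_pos (Finset.mem_univ j0)] at h4
  have h5 := mul_le_mul_of_nonneg_left (hy j0) (show 0 ≤ β + 2 * θ * β by positivity)
  have h6 := mul_le_mul_of_nonneg_left h2 hβ0
  have h7 : 0 ≤ 2 * θ * β * ε := mul_nonneg (by positivity) (by linarith)
  nlinarith

end Vale.Agent.P254
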