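import Vale.Agent.P254.Aff

/-!
P254 Split (TASK, helper names start with split_): cutting along the cones from the centroid.
bc_Lm: Fin.cases on j and Fin.succAboveCases k; or first show (Lm k *ᵥ y) i = k.insertNth 0 y i.succ - sm y / (n+1) and use sum_bc,
Fin.sum_univ_succAbove.  det_Lm: Matrix.exists_mulVec_eq_zero_iff and bc_Lm at j = k (sm y = 0) and j = k.succAbove l.
split: R k = {x | ∀ j, bc x k ≤ bc x j} = aff (Lm k) (c0 n) '' Ort n (surjectivity from aff_inv), the R k cover (Finite.exists_min),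
for k ≠ k' the set R k ∩ R k' lies in the null set {bc x k = bc x k'} (Measure.addHaar_affineSubspace, or translate and
Measure.addHaar_submodule); integral_iUnion_ae / integral_fintype_iUnion style lemma with AEDisjoint; aff_int;
K ∩ aff .. '' Ort = aff .. '' (Ort ∩ aff .. ⁻¹' K).
-/

open MeasureTheory Set Matrix

noncomputable section

namespace Vale.Agent.P254

variable {n : ℕ}

theorem split_ite (k j : Fin (n + 1)) (y : Fin n → ℝ) :
    ∑ l, (if j = k.succAbove l then 1 else 0) * y l = (k.insertNth (0 : ℝ) y : Fin (n + 1) → ℝ) j := by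
  refine Fin.succAboveCases k ?_ (fun l => ?_) j
  · simp [Fin.ne_succAbove]
  · simp

theorem bc_Lm (k j : Fin (n + 1)) (y : Fin n → ℝ) : bc (aff (Lm k) (c0 n) y) j =
    (1 - sm y) / (n + 1) + (k.insertNth (0 : ℝ) y : Fin (n + 1) → ℝ) j := by
  have n0 : (n + 1 : ℝ) ≠ 0 := by positivity
  have e : aff (Lm k) (c0 n) y = Fin.tail fun j =>
      (1 - sm y) / (n + 1) + (k.insertNth (0 : ℝ) y : Fin (n + 1) → ℝ) j := by
    funext i
    simp only [aff, Lm, c0, Fin.tail, Pi.add_apply, mulVec, dotProduct, of_apply, sub_mul,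
      Finset.sum_sub_distrib, split_ite, ← Finset.mul_sum, sm]
    ring
  rw [e, bc_tail]
  rw [Finset.sum_add_distrib, Fin.sum_univ_succAbove (k.insertNth (0 : ℝ) y) k]
  simp only [Fin.insertNth_apply_same, Fin.insertNth_apply_succAbove, Finset.sum_const,
    Finset.card_univ, Fintype.card_fin, nsmul_eq_mul, sm]
  push_cast
  field_simp
  ring

theorem split_same (k : Fin (n + 1)) (y : Fin n → ℝ) :
    bc (aff (Lm k) (c0 n) y) k = (1 - sm y) / (n + 1) := by
  rw [bc_Lm, Fin.insertNth_apply_same, add_zero]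

theorem split_above (k : Fin (n + 1)) (y : Fin n → ℝ) (l : Fin n) :
    bc (aff (Lm k) (c0 n) y) (k.succAbove l) = (1 - sm y) / (n + 1) + y l := by
  rw [bc_Lm, Fin.insertNth_apply_succAbove]

theorem det_Lm (k : Fin (n + 1)) : (Lm k).det ≠ 0 := by
  intro h
  obtain ⟨v, v0, hv⟩ := Matrix.exists_mulVec_eq_zero_iff.2 h
  have e : aff (Lm k) (c0 n) v = aff (Lm k) (c0 n) 0 := by rw [aff, aff, hv, mulVec_zero]
  refine v0 (funext fun l => ?_)
  have h1 := split_same k v
  have h2 := split_above k v l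
  rw [e] at h1 h2
  rw [split_same] at h1
  rw [split_above] at h2
  linarith

theorem Qx_Lm (k : Fin (n + 1)) (y : Fin n → ℝ) : Qx (aff (Lm k) (c0 n) y) = Qy y := by
  have n0 : (n + 1 : ℝ) ≠ 0 := by positivity
  have e : ∀ l, ((1 - sm y) / (n + 1) + y l - 1 / (n + 1)) ^ 2 =
      y l ^ 2 - 2 * (sm y / (n + 1)) * y l + (sm y / (n + 1)) ^ 2 := fun l => by ring
  have e2 : ∑ l, y l = sm y := rfl
  rw [Qx, Qy, Fin.sum_univ_succAbove _ k]
  simp only [split_same, split_above, e, Finset.sum_add_distrib, Finset.sum_sub_distrib,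
    ← Finset.mul_sum, e2, Finset.sum_const, Finset.card_univ, Fintype.card_fin, nsmul_eq_mul]
  field_simp
  ring

theorem T0_pre (k : Fin (n + 1)) : Ort n ∩ aff (Lm k) (c0 n) ⁻¹' T0 n = T0 n := by
  have n0 : (0 : ℝ) < n + 1 := by positivity
  conv_rhs => rw [T0_eq]
  ext y
  refine and_congr_right fun hy => ⟨fun h => ?_, fun h j => ?_⟩
  · have h1 := h k
    rw [split_same, le_div_iff₀ n0, zero_mul] at h1
    exact sub_nonneg.1 h1
  · have h1 : 0 ≤ (1 - sm y) / (n + 1) := div_nonneg (sub_nonneg.2 h) n0.le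
    refine Fin.succAboveCases k ?_ (fun l => ?_) j
    · rwa [split_same]
    · rw [split_above]
      exact add_nonneg h1 (hy l)

theorem split_mem (k : Fin (n + 1)) (y : Fin n → ℝ) :
    y ∈ Ort n ↔ ∀ j, bc (aff (Lm k) (c0 n) y) k ≤ bc (aff (Lm k) (c0 n) y) j := by
  refine ⟨fun h j => ?_, fun h l => ?_⟩
  · refine Fin.succAboveCases k le_rfl (fun l => ?_) j
    rw [split_same, split_above]
    exact le_add_of_nonneg_right (h l)
  · have h1 := h (k.succAbove l)
    rw [split_same, split_above] at h1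
    linarith

theorem split_null {k k' : Fin (n + 1)} (h : k ≠ k') :
    volume {x : Fin n → ℝ | bc x k = bc x k'} = 0 := by
  have e : ∀ (c : ℝ) (p q r : Fin n → ℝ) (j : Fin (n + 1)),
      bc (c • (p -ᵥ q) +ᵥ r) j = c * (bc p j - bc q j) + bc r j := fun c p q r j => by
    refine Fin.cases ?_ (fun i => rfl) j
    simp only [bc_zero, vsub_eq_sub, vadd_eq_add, sm_add, sm_smul, sub_eq_add_neg,
      ← neg_smul, smul_add, smul_neg]
    ring
  refine Measure.addHaar_affineSubspace volume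
    (⟨{x | bc x k = bc x k'}, fun c p q r hp hq hr => ?_⟩ : AffineSubspace ℝ (Fin n → ℝ))
    fun ht => ?_
  · rw [mem_ofPred_eq] at hp hq hr ⊢
    rw [e, e, hp, hq, hr]
  · have h1 := AffineSubspace.mem_top ℝ (Fin n → ℝ) (Fin.tail (Pi.single k 1 : Fin (n + 1) → ℝ))
    rw [← ht] at h1
    have h2 : bc (Fin.tail (Pi.single k 1 : Fin (n + 1) → ℝ)) k =
      bc (Fin.tail (Pi.single k 1 : Fin (n + 1) → ℝ)) k' := h1
    rw [bc_tail (by simp)] at h2
    simp [h.symm] at h2

theorem split {K : Set (Fin n → ℝ)} (hK : IsCompact K) {f : (Fin n → ℝ) → ℝ} (hf : Continuous f) :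
    ∫ x in K, f x = ∑ k : Fin (n + 1),
      |(Lm k).det| * ∫ y in Ort n ∩ aff (Lm k) (c0 n) ⁻¹' K, f (aff (Lm k) (c0 n) y) := by
  have hc : ∀ k : Fin (n + 1), IsClosed {x : Fin n → ℝ | ∀ j, bc x k ≤ bc x j} := fun k => by
    rw [ofPred_forall]
    exact isClosed_iInter fun j => isClosed_le (continuous_bc k) (continuous_bc j)
  have e : ⋃ k : Fin (n + 1), K ∩ {x | ∀ j, bc x k ≤ bc x j} = K := by
    refine Subset.antisymm (iUnion_subset fun k => inter_subset_left) fun x hx => ?_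
    obtain ⟨k, hk⟩ := Finite.exists_min (bc x)
    exact mem_iUnion.2 ⟨k, hx, hk⟩
  have h1 := integral_iUnion_ae (μ := volume) (f := f)
    (s := fun k : Fin (n + 1) => K ∩ {x | ∀ j, bc x k ≤ bc x j})
    (fun k => (hK.isClosed.inter (hc k)).measurableSet.nullMeasurableSet)
    (fun k k' h => measure_mono_null (fun x hx => le_antisymm (hx.1.2 k') (hx.2.2 k))
      (split_null h)) (by rw [e]; exact hf.continuousOn.integrableOn_compact hK)
  rw [e, tsum_fintype] at h1
  rw [h1]
  refine Finset.sum_congr rfl fun k _ => ?_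
  rw [← aff_int (det_Lm k) (c0 n)
    (isClosed_Ort.inter (hK.isClosed.preimage (continuous_aff _ _))).measurableSet]
  obtain ⟨M, b, -, -, h2⟩ := aff_inv (det_Lm k) (c0 n)
  have e2 : K ∩ {x | ∀ j, bc x k ≤ bc x j} =
      aff (Lm k) (c0 n) '' (Ort n ∩ aff (Lm k) (c0 n) ⁻¹' K) := by
    refine Subset.antisymm (fun x hx => ⟨aff M b x, ⟨(split_mem k _).2 ?_, ?_⟩, h2 x⟩) ?_
    · rw [h2]
      exact hx.2
    · rw [mem_preimage, h2]
      exact hx.1
    · rintro _ ⟨y, hy, rfl⟩
      exact ⟨hy.2, (split_mem k y).1 hy.1⟩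
  rw [e2]

end Vale.Agent.P254
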